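import Vale.Agent.P235P.Main
import Vale.Agent.P235Q.ApCut

/-! P235: planar cut measures that are exact from a root. -/

open Set Classical Filter
open scoped BigOperators

noncomputable section

namespace Vale.Agent.P235.Pl

variable {S : Sk} {D : Lk}

/-- A cut measure that is nonexpansive, contracts by at most `c` and dominates the height. -/
def XLaw {V : Type} [Fintype V] (d : V → V → ℝ) (h : V → ℝ) (c : ℝ) : Prop :=
  ∃ w : (V → Bool) → ℝ, (∀ η, 0 ≤ w η) ∧ ∀ x y, c * d x y ≤ Ap.cs w x y ∧ Ap.cs w x y ≤ d x y ∧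
    |h x - h y| ≤ Ap.cs w x y

theorem sepw_eq_cs {V : Type} [Fintype V] (w : (V → Bool) → ℝ) (x y : V) :
    sepw w x y = Ap.cs w x y := by
  refine Finset.sum_congr (by ext; simp) fun η _ => ?_
  cases hx : η x <;> cases hy : η y <;> simp [xv, Ap.sp, hx, hy]

theorem xlaw_of_pay {Ω : Type} [Fintype Ω] {Ψ : Ω → ℕ → ℝ → ℝ} {n c : ℝ} {V : Type} [Fintype V]
    {pt : V → ℕ × ℝ} {d : V → V → ℝ}
    (hd : Realises S D pt d) (hn : 0 < n) (hc : 0 < c) (hΨ : ∀ ω, Cons S D (Ψ ω))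
    (hE : ∀ θ t, ∑ ω, Ψ ω θ t = n * t)
    (hv : ∀ x y, x ≠ y → ∃ v : Ω → ℝ, (∀ ω, Paid S D (Ψ ω) (pt x) (pt y) (v ω)) ∧
      c * (n * d x y) ≤ ∑ ω, v ω) : XLaw d (fun x => (pt x).2) c := by
  have h1 := fun x y => yreach hΨ hE (hd.2.2 x y).1
  have h2 : ∀ ω x y, ∃ τ, YHi S D (Ψ ω) τ (pt x) (pt y) := fun ω x y =>
    let ⟨τ, h, _⟩ := h1 x y
    ⟨τ ω, h ω⟩
  set M : Ω → V → V → ℝ := fun ω x y => ylev S D (Ψ ω) (pt x) (pt y) with hM
  have h3 : ∀ x y, Ap.cs (fun η => n⁻¹ * ∑ ω, ywt (M ω) η) x y =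
      n⁻¹ * ∑ ω, (Ψ ω (pt x).1 (pt x).2 + Ψ ω (pt y).1 (pt y).2 -
      2 * ylev S D (Ψ ω) (pt x) (pt y)) := fun x y => by
    have k : ∀ ω, sepw (ywt (M ω)) x y = Ψ ω (pt x).1 (pt x).2 + Ψ ω (pt y).1 (pt y).2 -
        2 * ylev S D (Ψ ω) (pt x) (pt y) := fun ω => by
      rw [ywt_sep (M := M ω) (fun _ _ => ylev_symm (hΨ ω))
        (fun x y z => ylev_ultra (h2 ω x y) (h2 ω y z)) x y]
      simp only [hM, ylev_self]
    rw [← sepw_eq_cs, ← Finset.sum_congr rfl fun ω _ => k ω]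
    simp only [sepw, ex, Finset.mul_sum, Finset.sum_mul, mul_assoc]
    exact Finset.sum_comm
  refine ⟨fun η => n⁻¹ * ∑ ω, ywt (M ω) η, fun η => mul_nonneg (inv_pos.2 hn).le
    (Finset.sum_nonneg fun ω _ => (ENNReal.toReal_nonneg : 0 ≤ ywt (M ω) η)), fun x y => ?_⟩
  have h4 : |(pt x).2 - (pt y).2| ≤ Ap.cs (fun η => n⁻¹ * ∑ ω, ywt (M ω) η) x y := by
    rw [h3, le_inv_mul_iff₀ hn, ← abs_of_pos hn, ← abs_mul, mul_sub, ← hE (pt x).1, ← hE (pt y).1,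
      ← Finset.sum_sub_distrib]
    exact (Finset.abs_sum_le_sum_abs _ _).trans
      (Finset.sum_le_sum fun ω _ => ylev_paid hd.1 (hΨ ω) (h2 ω x y) (Or.inl le_rfl))
  refine ⟨?_, ?_, h4⟩
  · by_cases h : x = y
    · subst h
      exact (mul_nonpos_of_nonneg_of_nonpos hc.le ((hd.2.2 x x).2 (.refl trivial))).trans
        ((abs_nonneg _).trans h4)
    · obtain ⟨v, v1, v2⟩ := hv x y h
      rw [h3, le_inv_mul_iff₀ hn, mul_left_comm]
      exact v2.trans (Finset.sum_le_sum fun ω _ => ylev_paid hd.1 (hΨ ω) (h2 ω x y) (v1 ω))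
  · obtain ⟨τ, t1, t2⟩ := h1 x y
    rw [h3, inv_mul_le_iff₀ hn]
    exact (Finset.sum_le_sum fun ω _ => by linarith [(t1 ω).le]).trans t2

theorem xlaw_mix {V U : Type} [Fintype V] [Fintype U] [Nonempty U] {pt : V → ℕ × ℝ}
    {d : V → V → ℝ} (hd : Realises S D pt d) {O : U → Type} [∀ u, Fintype (O u)] {K : ℕ}
    (hK : 0 < K) (hO : ∀ u, Fintype.card (O u) = K) {Ψ : ∀ u, O u → ℕ → ℝ → ℝ} {c : ℝ} (hc : 0 < c)
    (hΨ : ∀ u ω, Cons S D (Ψ u ω)) (hE : ∀ u θ t, 𝔼 ω, Ψ u ω θ t = t)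
    (hv : ∀ x y, x ≠ y → ∃ u, ∃ v : O u → ℝ, (∀ ω, Paid S D (Ψ u ω) (pt x) (pt y) (v ω)) ∧
      c * d x y ≤ 𝔼 ω, v ω) : XLaw d (fun x => (pt x).2) (c / Fintype.card U) := by
  have hK' : (0 : ℝ) < K := Nat.cast_pos.2 hK
  have hU : (0 : ℝ) < Fintype.card U := Nat.cast_pos.2 Fintype.card_pos
  have e : ∀ u (g : O u → ℝ), ∑ ω, g ω = K * 𝔼 ω, g ω := fun u g => by
    rw [← hO u, Fintype.card_mul_expect]
  refine xlaw_of_pay (Ω := Σ u, O u) (Ψ := fun z => Ψ z.1 z.2) (n := Fintype.card U * K) hd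
    (mul_pos hU hK') (div_pos hc hU) (fun z => hΨ _ _) (fun θ t => ?_) fun x y h => ?_
  · simp only [Fintype.sum_sigma, e, hE, Finset.sum_const, Finset.card_univ, nsmul_eq_mul, mul_assoc]
  · obtain ⟨u, v, v1, v2⟩ := hv x y h
    refine ⟨fun z => Function.update (fun u (_ : O u) => (0 : ℝ)) u v z.1 z.2, fun z => ?_, ?_⟩
    · obtain ⟨u', ω⟩ := z
      by_cases k : u' = u
      · subst k
        simpa using v1 ω
      · simp only [Function.update_of_ne k]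
        exact Or.inl (abs_nonneg _)
    · rw [Fintype.sum_sigma, Finset.sum_eq_single u (fun u' _ k => by simp [Function.update_of_ne k])
        (by simp)]
      simp only [Function.update_self, e]
      refine le_trans (le_of_eq ?_) (mul_le_mul_of_nonneg_left v2 hK'.le)
      field_simp

theorem diag_xlaw : ∃ c : ℝ, 0 < c ∧ ∀ (V : Type) [Fintype V] (S : Sk) (D : Lk) (pt : V → ℕ × ℝ)
    (d : V → V → ℝ), (∀ a, S.mate a ≠ a + 1) → Realises S D pt d → (∀ x y, x ≠ y → 0 < d x y) →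
      XLaw d (fun x => (pt x).2) c := by
  have hA : ∀ (S : Sk) (π : Par), 200 ≤ π.m0 → ∀ (c : Ctx S) q pk z o, TypeA c q pk z o →
      ∃ zx, FrameC (sysA S π) c (ptA c q pk) (payA zx) :=
    fun _ _ hm _ _ _ _ _ h => h.zo.elim
      (fun e => ⟨true, fun _ _ _ _ => frame (pairA (zx := true) hm h e.1) (main_payA h _)⟩)
      fun e => ⟨false, fun _ _ _ _ => frame (pairA (zx := false) hm h e.1) (main_payA h _)⟩
  have hB : ∀ (S : Sk) (π : Par), 200 ≤ π.m0 → ∀ c : Ctx S, TypeB c →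
      FrameC (sysB S π) c (ptB c) payB :=
    fun _ _ hm c h _ _ _ _ => frame (pairB hm h) (main_payB c)
  refine ⟨(2 ^ 79)⁻¹ / Fintype.card (Bool × Fin 200),
    div_pos (by positivity) (Nat.cast_pos.2 Fintype.card_pos), fun V _ S D pt d adj hd hp => ?_⟩
  have hk : ∀ z : {z : V × V // z.1 ≠ z.2}, ∃ k : ℤ,
      2 ^ 23 * 2 ^ k ≤ d z.1.1 z.1.2 ∧ d z.1.1 z.1.2 ≤ 2 ^ 24 * 2 ^ k := fun z => by
    obtain ⟨k, k1, k2⟩ := exists_mem_Ico_zpow (div_pos (hp _ _ z.2) (pow_pos two_pos 23)) one_lt_two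
    rw [zpow_add_one₀ two_ne_zero] at k2
    exact ⟨k, by linarith, by linarith⟩
  choose k k1 k2 using hk
  have t1 : Tendsto (fun j : ℕ => (j : ℤ)) atTop atTop := tendsto_natCast_atTop_atTop
  have t2 : Tendsto (fun j : ℕ => (2 : ℝ) ^ j / 2) atTop atTop :=
    (tendsto_pow_atTop_atTop_of_one_lt one_lt_two).atTop_div_const two_pos
  obtain ⟨j, j1, j2⟩ := ((eventually_all.2 fun z => t1.eventually_ge_atTop (k z + 196)).and
    (eventually_all.2 fun z : {z : V × V // z.1 ≠ z.2} =>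
      t2.eventually_ge_atTop (|(pt z.1.1).2| + 100 * d z.1.1 z.1.2))).exists
  obtain ⟨nS, hS⟩ := (eventually_all.2 fun z => t1.eventually_ge_atTop (j + 10 - k z)).exists
  obtain ⟨Nq, hq⟩ := (eventually_all.2 fun z : {z : V × V // z.1 ≠ z.2} =>
    ((tendsto_natCast_atTop_atTop (R := ℝ)).atTop_mul_const (hp _ _ z.2)).eventually_ge_atTop
      (256 * 2 ^ j)).exists
  have hw : 0 < (st0 D (-(2 ^ j / 2)) (2 ^ j)).w := pow_pos two_pos j
  exact xlaw_mix hd (O := fun u : Bool × Fin 200 =>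
      Om S ⟨200, u.2, Nq, nS⟩ ((2 * (S.N + 1) ^ 2 + 3) * (nS + 1))) Fintype.card_pos
    (fun u => Fintype.card_congr (Equiv.cast (main_om _ _ _ _ 0 _)))
    (Ψ := fun u => (msys S Nq nS u).proc _ (st0 D (-(2 ^ j / 2)) (2 ^ j))) (by positivity)
    (fun u ω => ⟨Sys.proc_mono _ _ _ hw ω, fun _ _ _ h => Sys.proc_cons _ _ _ hw ω h⟩)
    (fun u => Sys.proc_mean _ _ _ hw) fun x y h =>
      main_pair (hA S) (hB S) hd.1 adj (hd.2.1 x) (hd.2.1 y) (hd.2.2 x y) (k1 ⟨(x, y), h⟩)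
        (k2 ⟨(x, y), h⟩) (j1 _) (hS _) (hq ⟨(x, y), h⟩) (j2 ⟨(x, y), h⟩) le_rfl

/-- The planar law rooted at `r`. -/
theorem planar_xlaw : ∃ c : ℝ, 0 < c ∧ ∀ (V : Type) [Fintype V] (G : SimpleGraph V),
    G.Connected → Planar G → ∀ ℓ : Sym2 V → ℝ, (∀ e ∈ G.edgeSet, 0 < ℓ e) → ∀ r : V,
      XLaw (spDist G ℓ) (fun v => spDist G ℓ v r) c := by
  obtain ⟨c, hc, H⟩ := diag_xlaw
  refine ⟨c, hc, fun V _ G hG hp ℓ hl r => ?_⟩
  have M := met hG hl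
  by_cases h1 : ∀ x y : V, x = y
  · refine ⟨fun _ => 0, fun _ => le_rfl, fun x y => ?_⟩
    obtain rfl := h1 x y
    simp [Ap.cs, M.self]
  have hd : ∀ v : V, ∃ e : G.Dart, e.fst = v := fun v => by
    obtain ⟨w, hw⟩ : ∃ w, v ≠ w := by
      by_contra h
      exact h1 fun x y => by
        rw [← not_not.1 (not_exists.1 h x), ← not_not.1 (not_exists.1 h y)]
    obtain ⟨z, hz, -⟩ := M.bell v w hw
    exact ⟨⟨(v, z), hz⟩, rfl⟩
  choose o ho using hd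
  obtain ⟨σ, hσ, hE⟩ := hp.resolve_left fun h => (h ▸ (o r).edge_mem : (o r).edge ∈ (∅ : Set _))
  obtain ⟨T, rfl, rfl, g⟩ := M.exists_tr hσ r
  obtain ⟨C⟩ := T.exists_ct (ho _)
  have nc := C.nc hE
  rw [← funext g.h]
  refine H V (C.sk nc) (C.lk ℓ) (fun v => (C.tm (o v), T.h v)) _ C.adj ⟨C.init nc M g,
    fun v => ⟨C.one _, C.le _, fun a p ha hp hθ => ?_⟩, fun x y => ⟨?_, fun c hc => ?_⟩⟩
    (spDist_pos hG hl)
  · obtain rfl : p = T.pk ℓ (C.dt a) := hp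
    have := C.h_le M g ha hθ
    rwa [C.dt_tm, ho] at this
  · have := C.up nc M g (o x) (o y)
    rwa [ho, ho] at this
  · have := C.lo nc M g (e := o x) (e' := o y) (c := c) (by rwa [ho, ho])
    rwa [ho, ho] at this

/-- The planar law, exact from the root `a`. -/
theorem planar_exact : ∃ c : ℝ, 0 < c ∧ ∀ (V : Type) [Fintype V] (G : SimpleGraph V),
    G.Connected → Planar G → ∀ ℓ : Sym2 V → ℝ, (∀ e ∈ G.edgeSet, 0 < ℓ e) → ∀ a : V,
      ∃ w : (V → Bool) → ℝ, (∀ η, 0 ≤ w η) ∧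
        (∀ x y, c * spDist G ℓ x y ≤ Ap.cs w x y ∧ Ap.cs w x y ≤ spDist G ℓ x y ∧
          |spDist G ℓ x a - spDist G ℓ y a| ≤ Ap.cs w x y) ∧
        ∀ y, Ap.cs w a y = spDist G ℓ a y := by
  obtain ⟨c, hc, H⟩ := planar_xlaw
  refine ⟨c, hc, fun V _ G hG hp ℓ hl a => ?_⟩
  obtain ⟨w, h0, h1⟩ := H V G hG hp ℓ hl a
  have M := met hG hl
  refine ⟨w, h0, h1, fun y => le_antisymm (h1 a y).2.1 (le_trans ?_ (h1 a y).2.2)⟩
  beta_reduce
  rw [M.self, zero_sub, abs_neg, M.symm a y]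
  exact le_abs_self _

end Vale.Agent.P235.Pl
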