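import Vale.Agent.P235.Concrete
import Vale.Agent.P235Q.ApCone

/-! Two-sums: rooted decompositions and cut laws. FROZEN. -/

namespace Vale.Agent.P235.Ts

open Finset

set_option linter.unusedSectionVars false

/-- A rooted tree of bags with the separation properties of a tree decomposition. -/
structure RD (V ι : Type) [PseudoMetricSpace V] where
  par : ι → ι
  dep : ι → ℕ
  root : ι
  dep_root : dep root = 0
  par_root : par root = root
  dep_par : ∀ τ ≠ root, dep τ = dep (par τ) + 1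
  B : ι → Set V
  cover : ∀ v, ∃ τ, v ∈ B τ
  ri : ∀ τ ≠ root, ∀ σ σ', (∃ k, par^[k] σ = τ) → (¬ ∃ k, par^[k] σ' = τ) →
    ∀ x ∈ B σ, x ∈ B σ' → x ∈ B τ ∧ x ∈ B (par τ)
  sep : ∀ τ ≠ root, ∀ σ σ', (∃ k, par^[k] σ = τ) → (¬ ∃ k, par^[k] σ' = τ) →
    ∀ x ∈ B σ, ∀ y ∈ B σ', ∃ q ∈ B τ, q ∈ B (par τ) ∧ dist x q + dist q y ≤ dist x y
  lip : ∀ (F : V → V → ℝ) (C : ℝ), 0 ≤ C → (∀ x, F x x ≤ 0) → (∀ x y z, F x z ≤ F x y + F y z) →
    (∀ τ, ∀ x ∈ B τ, ∀ y ∈ B τ, F x y ≤ C * dist x y) → ∀ x y, F x y ≤ C * dist x y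

namespace RD

variable {V ι : Type} [PseudoMetricSpace V] (T : RD V ι)

def Desc (τ σ : ι) : Prop := ∃ k, T.par^[k] σ = τ

def anc (σ : ι) (j : ℕ) : ι := T.par^[T.dep σ - j] σ

theorem dep_parent (τ : ι) : T.dep (T.par τ) = T.dep τ - 1 := by
  by_cases h : τ = T.root
  · subst h; rw [T.par_root, T.dep_root]
  · rw [T.dep_par τ h]; rfl

theorem dep_iter (σ : ι) (k : ℕ) : T.dep (T.par^[k] σ) = T.dep σ - k := by
  induction k with
  | zero => rfl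
  | succ k ih => rw [Function.iterate_succ_apply', dep_parent, ih]; omega

theorem eq_root {τ : ι} (h : T.dep τ = 0) : τ = T.root := by
  by_contra h1; have := T.dep_par τ h1; omega

theorem dep_anc {σ : ι} {j : ℕ} (h : j ≤ T.dep σ) : T.dep (T.anc σ j) = j := by
  rw [anc, dep_iter]; omega

theorem anc_ge {σ : ι} {j : ℕ} (h : T.dep σ ≤ j) : T.anc σ j = σ := by
  rw [anc, Nat.sub_eq_zero_of_le h]; rfl

theorem anc_zero (σ : ι) : T.anc σ 0 = T.root := T.eq_root (T.dep_anc (Nat.zero_le _))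

theorem par_anc {σ : ι} {j : ℕ} (h : j < T.dep σ) : T.par (T.anc σ (j + 1)) = T.anc σ j := by
  rw [anc, anc, ← Function.iterate_succ_apply' T.par]
  congr 1; omega

theorem anc_ne {σ : ι} {j : ℕ} (h : j < T.dep σ) : T.anc σ (j + 1) ≠ T.root := fun h1 => by
  have := T.dep_anc (show j + 1 ≤ T.dep σ from h)
  rw [h1, T.dep_root] at this; omega

theorem anc_anc {σ : ι} {i j : ℕ} (h : j ≤ i) (hi : i ≤ T.dep σ) :
    T.anc (T.anc σ i) j = T.anc σ j := by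
  rw [anc, T.dep_anc hi, anc, anc, ← Function.iterate_add_apply]
  congr 1; omega

theorem anc_inj {σ : ι} {i j : ℕ} (hi : i ≤ T.dep σ) (hj : j ≤ T.dep σ)
    (h : T.anc σ i = T.anc σ j) : i = j := by
  rw [← T.dep_anc hi, h, T.dep_anc hj]

variable {T}

theorem Desc.dep_le {τ σ : ι} (h : T.Desc τ σ) : T.dep τ ≤ T.dep σ := by
  obtain ⟨k, rfl⟩ := h; rw [dep_iter]; omega

theorem Desc.anc_eq {τ σ : ι} (h : T.Desc τ σ) : T.anc σ (T.dep τ) = τ := by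
  obtain ⟨k, rfl⟩ := h
  by_cases hk : k ≤ T.dep σ
  · rw [anc, dep_iter]; congr 1; omega
  · have : T.dep (T.par^[k] σ) = 0 := by rw [dep_iter]; omega
    rw [this, anc_zero, T.eq_root this]

theorem Desc.trans {a b c : ι} (h : T.Desc a b) (h' : T.Desc b c) : T.Desc a c := by
  obtain ⟨k, rfl⟩ := h
  obtain ⟨l, rfl⟩ := h'
  exact ⟨k + l, Function.iterate_add_apply _ _ _ _⟩

theorem desc_anc (σ : ι) (j : ℕ) : T.Desc (T.anc σ j) σ := ⟨_, rfl⟩

theorem desc_anc_anc {σ : ι} {i j : ℕ} (h : j ≤ i) (hi : i ≤ T.dep σ) :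
    T.Desc (T.anc σ j) (T.anc σ i) := by
  rw [← T.anc_anc h hi]; exact desc_anc _ _

theorem not_desc {σ τ : ι} (h : σ ≠ τ) (hd : T.dep τ ≤ T.dep σ) : ¬ T.Desc σ τ := fun h1 => by
  have := h1.anc_eq
  rw [T.anc_ge hd] at this
  exact h this.symm

variable (T)

def Qs (τ : ι) : Set V := T.B τ ∩ T.B (T.par τ)

def Us (τ : ι) : Set V := {x | ∃ σ, T.Desc τ σ ∧ x ∈ T.B σ} \ T.Qs τ

theorem notU {σ τ : ι} (hσ : σ ≠ T.root) (h : ¬ T.Desc σ τ) : T.B τ ⊆ (T.Us σ)ᶜ := by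
  rintro x hx ⟨⟨ρ, h1, h2⟩, h3⟩
  exact h3 (T.ri σ hσ ρ τ h1 h x h2 hx)

theorem U_sub {σ τ : ι} (hσ : σ ≠ T.root) (h : T.Desc τ σ) : T.Us σ ⊆ T.Us τ := by
  by_cases he : σ = τ
  · rw [he]
  intro x hx
  obtain ⟨⟨ρ, h1, h2⟩, _⟩ := id hx
  exact ⟨⟨ρ, h.trans h1, h2⟩, fun h4 => T.notU hσ (not_desc he h.dep_le) h4.1 hx⟩

/-- The gluing data of a rooted decomposition. -/
def glueD : GlueD V ι where
  B τ := T.B τ
  Q := T.Qs
  U := T.Us
  par := T.par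
  dep := T.dep
  root := T.root
  dep_par := T.dep_par
  QB _ := Set.inter_subset_left
  QP _ _ := Set.inter_subset_right
  BU τ x hx := by
    by_cases h : x ∈ T.Qs τ
    · exact Or.inr h
    · exact Or.inl ⟨⟨τ, ⟨0, rfl⟩, hx⟩, h⟩
  QU _ _ hx h := h.2 hx
  UB _ hσ _ h1 h2 := T.notU hσ (not_desc h1 h2)
  rootB _ hσ := T.notU hσ (not_desc hσ (by rw [T.dep_root]; exact Nat.zero_le _))
  UU σ hσ τ hτ _ _ := by
    by_cases h : T.Desc τ σ
    · exact Or.inl (T.U_sub hσ h)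
    · exact Or.inr (Set.inter_subset_left.trans (T.notU hτ h))

def go {α : Type*} (a : α) (f : ι → α → α) : ℕ → ι → α
  | 0, _ => a
  | n + 1, τ => f τ (go a f n (T.par τ))

/-- Recursion from the root. -/
def rc {α : Type*} (a : α) (f : ι → α → α) (τ : ι) : α := T.go a f (T.dep τ) τ

theorem rc_root {α : Type*} (a : α) (f : ι → α → α) : T.rc a f T.root = a := by
  rw [rc, T.dep_root]; rfl

theorem rc_step {α : Type*} (a : α) (f : ι → α → α) {τ : ι} (h : τ ≠ T.root) :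
    T.rc a f τ = f τ (T.rc a f (T.par τ)) := by
  rw [rc, T.dep_par τ h]; rfl

theorem induct {P : ι → Prop} (h0 : P T.root) (h1 : ∀ τ ≠ T.root, P (T.par τ) → P τ) (τ : ι) :
    P τ := by
  induction h : T.dep τ generalizing τ with
  | zero => rw [T.eq_root h]; exact h0
  | succ n ih =>
    have hτ : τ ≠ T.root := fun h2 => by rw [h2, T.dep_root] at h; omega
    exact h1 τ hτ (ih _ (by have := T.dep_par τ hτ; omega))

theorem exists_lca (σ σ' : ι) : ∃ j, j ≤ T.dep σ ∧ j ≤ T.dep σ' ∧ T.anc σ j = T.anc σ' j ∧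
    (j < T.dep σ → ¬ T.Desc (T.anc σ (j + 1)) σ') ∧
    (j < T.dep σ' → ¬ T.Desc (T.anc σ' (j + 1)) σ) := by
  classical
  obtain ⟨j, hj, hmax⟩ := exists_max_image ((range (T.dep σ + 1)).filter fun j =>
    j ≤ T.dep σ' ∧ T.anc σ j = T.anc σ' j) id ⟨0, by simp [anc_zero]⟩
  rw [mem_filter, mem_range] at hj
  refine ⟨j, by omega, hj.2.1, hj.2.2, fun h1 h2 => ?_, fun h1 h2 => ?_⟩
  · have h3 := h2.dep_le
    have h4 := h2.anc_eq
    rw [T.dep_anc h1] at h3 h4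
    have := hmax (j + 1) (mem_filter.2 ⟨mem_range.2 (by omega), h3, h4.symm⟩)
    simp at this
  · have h3 := h2.dep_le
    have h4 := h2.anc_eq
    rw [T.dep_anc h1] at h3 h4
    have := hmax (j + 1) (mem_filter.2 ⟨mem_range.2 (by omega), h1, h4⟩)
    simp at this

end RD

section Laws

variable {V : Type} [PseudoMetricSpace V] [Fintype V] [DecidableEq V]

/-- A cut law on `B` that is exact on the pair `a, b`. -/
def Ex (B : Set V) (c : ℝ) (a b : V) : Prop :=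
  ∃ w : (V → Bool) → ℝ, (∀ η, 0 ≤ w η) ∧
    (∀ x ∈ B, ∀ y ∈ B, c * dist x y ≤ sepw w x y ∧ sepw w x y ≤ dist x y) ∧ sepw w a b = dist a b

/-- The cut law of a bag: symmetric, of total mass `Z`, with prescribed value `m` on `a, b`. -/
structure Law (B : Set V) (c Z : ℝ) (a b : V) (m : ℝ) (w : (V → Bool) → ℝ) : Prop where
  nonneg : ∀ η, 0 ≤ w η
  symm : ∀ F : (V → Bool) → ℝ, ex w (fun η => F fun v => !η v) = ex w F
  tot : ex w (fun _ => 1) = Z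
  lo : ∀ x ∈ B, ∀ y ∈ B, c * dist x y ≤ sepw w x y
  up : ∀ x ∈ B, ∀ y ∈ B, sepw w x y ≤ dist x y
  ab : sepw w a b = m
  esc : ∀ x ∈ B, ∀ y ∈ B,
    c * min (dist a x) (dist a y) ≤ 4 * ex w fun η => (1 - xv a η) * xv x η * xv y η

/-- Laws exist for all admissible values on the pair. -/
def HasLaw (B : Set V) (c : ℝ) (a b : V) : Prop :=
  ∃ M : ℝ, ∀ Z, M ≤ Z → ∀ m, c * dist a b ≤ m → m ≤ dist a b → ∃ w, Law B c Z a b m w

/-- The four unanimous functions of a pair and their values. -/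
def IsVal (g : V → ℝ) (p q : V) (φ : (V → Bool) → ℝ) (v : ℝ) : Prop :=
  (φ = xv p ∧ v = g p) ∨ (φ = xv q ∧ v = g q) ∨
    ((φ = (fun η => xv p η * xv q η) ∨ φ = fun η => xv p η + xv q η - xv p η * xv q η) ∧
      v = (g p + g q) / 2)

variable {ι : Type}

/-- The pairs `a τ, b τ` enumerate the adhesions. -/
structure RD.Pairs (T : RD V ι) (a b : ι → V) : Prop where
  sub : ∀ τ ≠ T.root, T.Qs τ ⊆ {a τ, b τ}
  mem : ∀ τ ≠ T.root, (T.Qs τ).Nonempty → a τ ∈ T.Qs τ ∧ b τ ∈ T.Qs τ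
  eq : ∀ τ ≠ T.root, a τ = b τ ∨ (T.Qs τ).Nonempty

/-- The glued law. -/
structure RD.GL (T : RD V ι) (c Z : ℝ) (a b : ι → V) (m : ι → (V → Bool) → ℝ)
    (w : (V → Bool) → ℝ) : Prop where
  nonneg : ∀ η, 0 ≤ w η
  big : ∀ x y : V, 16 * dist x y < Z
  law : ∀ τ, ∃ μ, Law (T.B τ) c Z (a τ) (b τ) μ (m τ)
  cons : ∀ τ ≠ T.root, ∀ F, Dep F (T.Qs τ) → ex (m τ) F = ex (m (T.par τ)) F
  bag : ∀ τ F, Dep F (T.B τ) → ex w F = ex (m τ) F
  markov : ∀ τ ≠ T.root, ∀ φ ψ, Dep φ (T.Us τ)ᶜ → Dep ψ (T.B τ) →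
    ex w (fun η => φ η * ψ η) = ex w fun η => φ η * T.glueD.K m τ ψ η
  up : ∀ x y, sepw w x y ≤ dist x y

theorem cs_eq (w : (V → Bool) → ℝ) (x y : V) : Ap.cs w x y = sepw w x y := by
  unfold Ap.cs sepw ex
  refine Finset.sum_congr (by ext; simp) fun η _ => ?_
  cases hx : η x <;> cases hy : η y <;> simp [Ap.sp, xv, hx, hy]

end Laws

end Vale.Agent.P235.Ts
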