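import Vale.Agent.P235S.SBase

/-! Functions of a pair. `cons2`: `F η = α + β * xv a η + γ * xv b η + δ * |xv a η - xv b η|` (four cases; if `a = b` take `γ = δ = 0`), and `ex w (xv a) = Z / 2` by symmetry
(`xv a (!η) = 1 - xv a η`). `un_cases`: look at the values of `φ` on the cuts `{p}` and `{q}` (`p = q` separately). `card_four`: the image lies in the image of `Bool × Bool`. -/

namespace Vale.Agent.P235.Ts

open Finset

set_option linter.unusedSectionVars false

variable {V : Type} [PseudoMetricSpace V] [Fintype V] [DecidableEq V]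

theorem scons_fac {a b : V} {F : (V → Bool) → ℝ} (hF : Dep F {a, b}) (η : V → Bool) :
    F η = F fun v => if v = a then η a else η b := by
  refine hF _ _ fun v hv => ?_
  rcases hv with rfl | rfl
  · rw [if_pos rfl]
  · split_ifs with h
    · rw [h]
    · rfl

theorem scons_half {w : (V → Bool) → ℝ} (a : V)
    (h : ∀ F : (V → Bool) → ℝ, ex w (fun η => F fun v => !η v) = ex w F) :
    ex w (xv a) = ex w (fun _ => 1) / 2 := by
  have h1 := h (xv a)
  rw [ex_congr w (G := fun η => 1 - xv a η) fun η => by cases hη : η a <;> simp [xv, hη],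
    ex_sub] at h1
  linarith

theorem scons_lin {w : (V → Bool) → ℝ} (a b : V)
    (h : ∀ F : (V → Bool) → ℝ, ex w (fun η => F fun v => !η v) = ex w F) (α β γ δ : ℝ)
    {F : (V → Bool) → ℝ}
    (hF : ∀ η, F η = α * 1 + β * xv a η + γ * xv b η + δ * |xv a η - xv b η|) :
    ex w F = (α + β / 2 + γ / 2) * ex w (fun _ => 1) + δ * sepw w a b := by
  rw [ex_congr w hF, ex_add, ex_add, ex_add, ex_cmul, ex_cmul, ex_cmul, ex_cmul, scons_half a h,
    scons_half b h, sepw]
  ring

theorem cons2 {w w' : (V → Bool) → ℝ} {a b : V}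
    (h : ∀ F : (V → Bool) → ℝ, ex w (fun η => F fun v => !η v) = ex w F)
    (h' : ∀ F : (V → Bool) → ℝ, ex w' (fun η => F fun v => !η v) = ex w' F)
    (h1 : ex w (fun _ => 1) = ex w' fun _ => 1) (h2 : sepw w a b = sepw w' a b)
    {F : (V → Bool) → ℝ} (hF : Dep F {a, b}) : ex w F = ex w' F := by
  obtain ⟨G, hG⟩ : ∃ G : Bool → Bool → ℝ, ∀ η, F η = G (η a) (η b) :=
    ⟨fun s t => F fun v => if v = a then s else t, scons_fac hF⟩
  have e : ∀ η, F η = G false false * 1 +
      (G true false - G false true - G false false + G true true) / 2 * xv a η +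
      (G false true - G true false - G false false + G true true) / 2 * xv b η +
      (G true false + G false true - G false false - G true true) / 2 * |xv a η - xv b η| := by
    intro η
    rw [hG]
    cases ha : η a <;> cases hb : η b <;> simp [xv, ha, hb] <;> ring
  rw [scons_lin a b h _ _ _ _ e, scons_lin a b h' _ _ _ _ e, h1, h2]

theorem mass00 {w : (V → Bool) → ℝ} (a b : V)
    (h : ∀ F : (V → Bool) → ℝ, ex w (fun η => F fun v => !η v) = ex w F) :
    ex w (fun η => xv a η * xv b η) = (ex w (fun _ => 1) - sepw w a b) / 2 ∧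
      ex w (fun η => (1 - xv a η) * (1 - xv b η)) = (ex w (fun _ => 1) - sepw w a b) / 2 := by
  constructor
  · rw [scons_lin a b h 0 (1 / 2) (1 / 2) (-1 / 2) fun η => by
      cases ha : η a <;> cases hb : η b <;> simp [xv, ha, hb] <;> norm_num]
    ring
  · rw [scons_lin a b h 1 (-1 / 2) (-1 / 2) (-1 / 2) fun η => by
      cases ha : η a <;> cases hb : η b <;> simp [xv, ha, hb] <;> norm_num]
    ring

theorem un_cases (g : V → ℝ) {p q : V} {φ : (V → Bool) → ℝ} (hd : Dep φ {p, q})
    (h01 : ∀ η, φ η = 0 ∨ φ η = 1) (h0 : φ (fun _ => false) = 0) (h1 : φ (fun _ => true) = 1) :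
    ∃ v, IsVal g p q φ v := by
  obtain ⟨G, hG, g0, g1, g2, g3⟩ : ∃ G : Bool → Bool → ℝ, (∀ η, φ η = G (η p) (η q)) ∧
      G false false = 0 ∧ G true true = 1 ∧ (G true false = 0 ∨ G true false = 1) ∧
      (G false true = 0 ∨ G false true = 1) :=
    ⟨fun s t => φ fun v => if v = p then s else t, scons_fac hd, by simpa using h0,
      by simpa using h1, h01 _, h01 _⟩
  rcases g2 with g2 | g2 <;> rcases g3 with g3 | g3
  · refine ⟨_, .inr (.inr ⟨.inl (funext fun η => ?_), rfl⟩)⟩
    rw [hG]
    cases ha : η p <;> cases hb : η q <;> simp [xv, ha, hb, g0, g1, g2, g3]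
  · refine ⟨_, .inr (.inl ⟨funext fun η => ?_, rfl⟩)⟩
    rw [hG]
    cases ha : η p <;> cases hb : η q <;> simp [xv, hb, g0, g1, g2, g3]
  · refine ⟨_, .inl ⟨funext fun η => ?_, rfl⟩⟩
    rw [hG]
    cases ha : η p <;> cases hb : η q <;> simp [xv, ha, g0, g1, g2, g3]
  · refine ⟨_, .inr (.inr ⟨.inr (funext fun η => ?_), rfl⟩)⟩
    rw [hG]
    cases ha : η p <;> cases hb : η q <;> simp [xv, ha, hb, g0, g1, g2, g3]

theorem card_four {p q : V} {F : (V → Bool) → ℝ} (hd : Dep F {p, q}) :
    (univ.image F).card ≤ 4 := by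
  refine (card_le_card (t := univ.image fun x : Bool × Bool =>
    F fun v => if v = p then x.1 else x.2) fun y hy => ?_).trans (card_image_le.trans (by simp))
  obtain ⟨η, -, rfl⟩ := mem_image.1 hy
  exact mem_image.2 ⟨(η p, η q), mem_univ _, (scons_fac hd η).symm⟩

end Vale.Agent.P235.Ts
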