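import Vale.Agent.P235.Defs
import Vale.Agent.P235P.PDefs

/-! Tree decompositions of adhesion at most two. -/

namespace Vale.Agent.P235

/-- The torso of the bag `B t`: the induced graph, with every two vertices that lie together in
another bag made adjacent. -/
def torso {V ι : Type} (G : SimpleGraph V) (B : ι → Set V) (t : ι) : SimpleGraph (B t) :=
  SimpleGraph.fromRel fun x y => G.Adj x.1 y.1 ∨ ∃ s, s ≠ t ∧ x.1 ∈ B s ∧ y.1 ∈ B s

/-- `G` has a tree decomposition in which different bags share at most two vertices and every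
torso is planar or has at most `k` vertices. -/
def TwoSum {V : Type} (G : SimpleGraph V) (k : ℕ) : Prop :=
  ∃ (ι : Type) (_ : Finite ι) (T : SimpleGraph ι) (B : ι → Set V), T.IsTree ∧
    (∀ x y, G.Adj x y → ∃ t, x ∈ B t ∧ y ∈ B t) ∧
    (∀ v, (T.induce {t | v ∈ B t}).Connected) ∧
    (∀ s t, s ≠ t → (B s ∩ B t).ncard ≤ 2) ∧
    ∀ t, Planar (torso G B t) ∨ (B t).ncard ≤ k

end Vale.Agent.P235
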