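import Vale.Agent.P235S.SBase

/-! One step of a chain costs at least the change of the value. Let `C = ex w |φ' - φ|`; by symmetry `C` is also the mean of `|φ'* - φ*|`, where `*` swaps AND and OR
and fixes `xv`. Vertex `x` against AND or OR of `p, q`: `|x - p q| + |x - (p + q - p q)| = |x - p| + |x - q|` on `0, 1`, so `2 C = sepw x p + sepw x q`. AND or OR of `a, b` against AND or OR of
`p, q`: pointwise `|φ' - φ| + |φ'* - φ*| ≥ |b - q| - |a - p|` and `≥ |b - p| - |a - q|` and `≥ (1 - a) p q`, and in fact `C ≥ ex w ((1 - a) p q)` (for AND of `a, b` pointwise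
`|φ' - φ| ≥ (1 - a) p q`; for OR use the symmetric copy). So `c * min (dist a p) (dist a q) ≤ 4 C`; if the minimum is `dist a p` then `c * dist b q ≤ 2 C + dist a p`, and
`|v' - v| ≤ (dist a p + dist b q) / 2`. -/

namespace Vale.Agent.P235.Ts

open Finset

set_option linter.unusedSectionVars false

variable {V : Type} [PseudoMetricSpace V] [Fintype V] [DecidableEq V]

/-- AND or OR of a pair. -/
def SStep_mid (p q : V) (φ : (V → Bool) → ℝ) : Prop :=
  φ = (fun η => xv p η * xv q η) ∨ φ = fun η => xv p η + xv q η - xv p η * xv q η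

variable {B : Set V} {c Z μ : ℝ} {a b p q : V} {w : (V → Bool) → ℝ}

theorem SStep_sym (h : Law B c Z a b μ w) {F D : (V → Bool) → ℝ}
    (k : ∀ η, F η ≤ D η + D fun v => !η v) : ex w F ≤ 2 * ex w D := by
  have := ex_mono h.nonneg k
  rw [ex_add, h.symm D] at this
  linarith

theorem SStep_vm (h : Law B c Z a b μ w) {x : V} (hx : x ∈ B) (hp : p ∈ B) (hq : q ∈ B)
    {φ : (V → Bool) → ℝ} (hφ : SStep_mid p q φ) :
    c * (dist p x + dist q x) ≤ 2 * ex w fun η => |φ η - xv x η| := by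
  have k := SStep_sym h (F := fun η => |xv p η - xv x η| + |xv q η - xv x η|)
    (D := fun η => |φ η - xv x η|) fun η => by
      rcases hφ with rfl | rfl <;> cases h1 : η x <;> cases h2 : η p <;> cases h3 : η q <;>
        simp [xv, h1, h2, h3]
  rw [ex_add] at k
  have k1 := h.lo p hp x hx
  have k2 := h.lo q hq x hx
  unfold sepw at k1 k2
  linarith

theorem SStep_mm (h : Law B c Z a b μ w) (ha : a ∈ B) (hb : b ∈ B) (hp : p ∈ B) (hq : q ∈ B)
    {φ φ' : (V → Bool) → ℝ} (hφ : SStep_mid a b φ) (hφ' : SStep_mid p q φ') :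
    c * dist q b ≤ 2 * (ex w fun η => |φ' η - φ η|) + dist p a := by
  have k := SStep_sym h (F := fun η => |xv q η - xv b η| - |xv p η - xv a η|)
    (D := fun η => |φ' η - φ η|) fun η => by
      rcases hφ with rfl | rfl <;> rcases hφ' with rfl | rfl <;> cases h1 : η a <;>
        cases h2 : η b <;> cases h3 : η p <;> cases h4 : η q <;> simp [xv, h1, h2, h3, h4]
  rw [ex_sub] at k
  have k1 := h.lo q hq b hb
  have k2 := h.up p hp a ha
  unfold sepw at k1 k2
  linarith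

theorem SStep_esc (h : Law B c Z a b μ w) {φ φ' : (V → Bool) → ℝ} (hφ : SStep_mid a b φ)
    (hφ' : SStep_mid p q φ') :
    (ex w fun η => (1 - xv a η) * xv p η * xv q η) ≤ ex w fun η => |φ' η - φ η| := by
  rcases hφ with rfl | rfl
  · refine ex_mono h.nonneg fun η => ?_
    rcases hφ' with rfl | rfl <;> cases h1 : η a <;> cases h2 : η b <;> cases h3 : η p <;>
      cases h4 : η q <;> simp [xv, h1, h2, h3, h4]
  · rw [← h.symm fun η => |φ' η - (xv a η + xv b η - xv a η * xv b η)|]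
    refine ex_mono h.nonneg fun η => ?_
    rcases hφ' with rfl | rfl <;> cases h1 : η a <;> cases h2 : η b <;> cases h3 : η p <;>
      cases h4 : η q <;> simp [xv, h1, h2, h3, h4]

theorem SStep_comm {φ : (V → Bool) → ℝ} (hφ : SStep_mid p q φ) : SStep_mid q p φ :=
  hφ.imp (fun e => e.trans (funext fun _ => by ring)) fun e => e.trans (funext fun _ => by ring)

theorem SStep_fin {c t C : ℝ} (hc : 0 < c) (hc1 : c ≤ 1) (hC : 0 ≤ C) (h : c * t ≤ C) :
    c ^ 2 * t ≤ 8 * C := by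
  nlinarith [mul_le_mul_of_nonneg_left h hc.le, mul_le_mul_of_nonneg_right hc1 hC]

theorem step {B : Set V} {c Z μ : ℝ} {a b p q : V} {w : (V → Bool) → ℝ} (h : Law B c Z a b μ w)
    (hc : 0 < c) (hc1 : c ≤ 1) (ha : a ∈ B) (hb : b ∈ B) (hp : p ∈ B) (hq : q ∈ B) {g : V → ℝ}
    (hg : ∀ x y, |g x - g y| ≤ dist x y) {φ φ' : (V → Bool) → ℝ} {v v' : ℝ}
    (h1 : IsVal g a b φ v) (h2 : IsVal g p q φ' v') :
    c ^ 2 * |v' - v| ≤ 8 * ex w fun η => |φ' η - φ η| := by
  have hC : 0 ≤ ex w fun η => |φ' η - φ η| := ex_nonneg h.nonneg fun _ => abs_nonneg _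
  have av : ∀ x y z t, |(g x + g y) / 2 - (g z + g t) / 2| ≤ (dist x z + dist y t) / 2 :=
    fun x y z t => by
      have k1 := abs_le.1 (hg x z)
      have k2 := abs_le.1 (hg y t)
      exact abs_le.2 ⟨by linarith [k1.1, k2.1], by linarith [k1.2, k2.2]⟩
  have vv : ∀ x ∈ B, ∀ y ∈ B, c * |g y - g x| ≤ ex w fun η => |xv y η - xv x η| :=
    fun x hx y hy => (mul_le_mul_of_nonneg_left (hg y x) hc.le).trans (h.lo y hy x hx)
  have vm : ∀ x ∈ B, ∀ y ∈ B, ∀ z ∈ B, ∀ ψ, SStep_mid y z ψ →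
      c * |(g y + g z) / 2 - g x| ≤ ex w fun η => |ψ η - xv x η| := fun x hx y hy z hz ψ hψ => by
    have k1 := mul_le_mul_of_nonneg_left (av y z x x) hc.le
    have k2 := SStep_vm h hx hy hz hψ
    rw [add_self_div_two] at k1
    linarith
  have mv : ∀ x ∈ B, ∀ y ∈ B, ∀ z ∈ B, ∀ ψ, SStep_mid y z ψ →
      c * |g x - (g y + g z) / 2| ≤ ex w fun η => |xv x η - ψ η| := fun x hx y hy z hz ψ hψ => by
    rw [abs_sub_comm, ex_congr w fun η => abs_sub_comm (xv x η) (ψ η)]
    exact vm x hx y hy z hz ψ hψ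
  have mm : ∀ y ∈ B, ∀ z ∈ B, SStep_mid a b φ → SStep_mid y z φ' →
      c * dist a y ≤ 4 * (ex w fun η => |φ' η - φ η|) →
      c ^ 2 * |(g y + g z) / 2 - (g a + g b) / 2| ≤ 8 * ex w fun η => |φ' η - φ η| :=
    fun y hy z hz m1 m2 k => by
      have k1 := mul_le_mul_of_nonneg_left (av y z a b) (sq_nonneg c)
      have k2 := mul_le_mul_of_nonneg_left (SStep_mm h ha hb hy hz m1 m2) hc.le
      have k3 := mul_le_mul_of_nonneg_right hc1 hC
      rw [dist_comm] at k
      have k4 := mul_le_mul_of_nonneg_left k hc.le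
      nlinarith
  rcases h1 with ⟨rfl, rfl⟩ | ⟨rfl, rfl⟩ | ⟨m1, rfl⟩ <;>
    rcases h2 with ⟨rfl, rfl⟩ | ⟨rfl, rfl⟩ | ⟨m2, rfl⟩
  · exact SStep_fin hc hc1 hC (vv _ ha _ hp)
  · exact SStep_fin hc hc1 hC (vv _ ha _ hq)
  · exact SStep_fin hc hc1 hC (vm _ ha _ hp _ hq _ m2)
  · exact SStep_fin hc hc1 hC (vv _ hb _ hp)
  · exact SStep_fin hc hc1 hC (vv _ hb _ hq)
  · exact SStep_fin hc hc1 hC (vm _ hb _ hp _ hq _ m2)
  · exact SStep_fin hc hc1 hC (mv _ hp _ ha _ hb _ m1)
  · exact SStep_fin hc hc1 hC (mv _ hq _ ha _ hb _ m1)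
  · have k1 := h.esc p hp q hq
    have k2 := SStep_esc h m1 m2
    rcases le_total (dist a p) (dist a q) with e | e
    · rw [min_eq_left e] at k1
      exact mm p hp q hq m1 m2 (by linarith)
    · rw [min_eq_right e] at k1
      rw [add_comm (g p)]
      exact mm q hq p hp m1 (SStep_comm m2) (by linarith)

end Vale.Agent.P235.Ts
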