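import Vale.Agent.P235S.SCons
import Vale.Agent.P235S.SStep

/-! Escape from a branch of the decomposition. -/

namespace Vale.Agent.P235.Ts

open Finset

set_option linter.unusedSectionVars false

variable {V ι : Type} [PseudoMetricSpace V] [Fintype V] [DecidableEq V] [Fintype ι] {T : RD V ι}
  {c Z : ℝ} {a b : ι → V} {m : ι → (V → Bool) → ℝ} {w : (V → Bool) → ℝ}

variable (T m) in
/-- Conditional probability that `t` lies in the cut, `k` steps above the node `σ`. -/
noncomputable def psi (σ : ι) (t : V) : ℕ → (V → Bool) → ℝ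
  | 0 => xv t
  | k + 1 => T.glueD.K m (T.anc σ (T.dep σ - k)) (psi σ t k)

theorem psi_succ {σ : ι} (t : V) {i : ℕ} (hi : i < T.dep σ) :
    psi T m σ t (T.dep σ - i) =
      T.glueD.K m (T.anc σ (i + 1)) (psi T m σ t (T.dep σ - (i + 1))) := by
  rw [show T.dep σ - i = T.dep σ - (i + 1) + 1 by omega, psi]
  congr 2; omega

theorem psi_dep {σ : ι} {t : V} (ht : t ∈ T.B σ) (i : ℕ) :
    Dep (psi T m σ t (T.dep σ - i)) (T.B (T.anc σ i)) ∧
      (i < T.dep σ → Dep (psi T m σ t (T.dep σ - i)) (T.Qs (T.anc σ (i + 1)))) := by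
  induction h : T.dep σ - i generalizing i with
  | zero => exact ⟨by rw [T.anc_ge (by omega)]; exact dep_xv ht, fun h => by omega⟩
  | succ k ih =>
    have hi : i < T.dep σ := by omega
    have h1 := (ih (i + 1) (by omega)).1
    have h2 : Dep (psi T m σ t (k + 1)) (T.Qs (T.anc σ (i + 1))) := by
      rw [← h, psi_succ t hi, show T.dep σ - (i + 1) = k by omega]
      exact kop_dep_bag h1 (T.glueD.BU _)
    exact ⟨h2.mono (by rw [← T.par_anc hi]; exact Set.inter_subset_right), fun _ => h2⟩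

theorem RD.GL.m0 (g : T.GL c Z a b m w) (τ : ι) (η : V → Bool) : 0 ≤ m τ η := by
  obtain ⟨μ, h⟩ := g.law τ
  exact h.nonneg η

theorem RD.GL.psi_mem (g : T.GL c Z a b m w) (σ : ι) (t : V) (k : ℕ) (η : V → Bool) :
    0 ≤ psi T m σ t k η ∧ psi T m σ t k η ≤ 1 := by
  induction k generalizing η with
  | zero => rcases xv_01 t η with h | h <;> simp [psi, h]
  | succ k ih => exact kop_mem (g.m0 _) ih η

theorem RD.GL.psi_id (g : T.GL c Z a b m w) {σ : ι} {t : V} (ht : t ∈ T.B σ) {i : ℕ}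
    (hi : i ≤ T.dep σ) {φ : (V → Bool) → ℝ}
    (hφ : i < T.dep σ → Dep φ (T.Us (T.anc σ (i + 1)))ᶜ) :
    ex w (fun η => φ η * xv t η) = ex w fun η => φ η * psi T m σ t (T.dep σ - i) η := by
  induction h : T.dep σ - i generalizing i with
  | zero => rfl
  | succ k ih =>
    have hi' : i < T.dep σ := by omega
    rw [ih (i := i + 1) hi' (fun h1 => (hφ hi').mono (Set.compl_subset_compl.2
      (T.U_sub (T.anc_ne h1) (RD.desc_anc_anc (by omega) h1)))) (by omega)]
    have h1 := (psi_dep (m := m) ht (i + 1)).1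
    rw [show T.dep σ - (i + 1) = k by omega] at h1
    rw [g.markov _ (T.anc_ne hi') _ _ (hφ hi') h1, ← h, psi_succ t hi',
      show T.dep σ - (i + 1) = k by omega]

theorem RD.GL.unan (g : T.GL c Z a b m w) (hp : T.Pairs a b) {σ : ι} {t : V} (ht : t ∈ T.B σ)
    {i : ℕ} (hi : i < T.dep σ) (hq : (T.Qs (T.anc σ (i + 1))).Nonempty) :
    psi T m σ t (T.dep σ - i) (fun _ => false) ≤ 1 / 4 ∧
      3 / 4 < psi T m σ t (T.dep σ - i) fun _ => true := by
  set τ := T.anc σ (i + 1) with hτ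
  have hr : τ ≠ T.root := T.anc_ne hi
  obtain ⟨ha, hb⟩ := hp.mem τ hr hq
  have hd : Dep (psi T m σ t (T.dep σ - i)) {a τ, b τ} :=
    ((psi_dep (m := m) ht i).2 hi).mono (hp.sub τ hr)
  set Ψ := psi T m σ t (T.dep σ - i) with hΨ
  obtain ⟨μ, L⟩ := g.law τ
  obtain ⟨e1, e0⟩ := mass00 (w := m τ) (a τ) (b τ) L.symm
  have hu := L.up _ ha.1 _ hb.1
  rw [L.tot] at e1 e0
  have b1 := g.big (a τ) (b τ)
  have b2 := g.big (a τ) t
  have b3 := g.up (a τ) t
  have b4 : 0 ≤ dist (a τ) t := dist_nonneg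
  have d1 : Dep (fun η => xv (a τ) η * xv (b τ) η) (T.Qs τ) :=
    (dep_xv ha).comp₂ (dep_xv hb) fun x y => x * y
  have d0 : Dep (fun η => (1 - xv (a τ) η) * (1 - xv (b τ) η)) (T.Qs τ) :=
    (dep_xv ha).comp₂ (dep_xv hb) fun x y => (1 - x) * (1 - y)
  rw [← g.bag τ _ (d1.mono Set.inter_subset_left)] at e1
  rw [← g.bag τ _ (d0.mono Set.inter_subset_left)] at e0
  have i1 := g.psi_id ht hi.le fun _ => d1.mono (T.glueD.QU _)
  have i0 := g.psi_id ht hi.le fun _ => d0.mono (T.glueD.QU _)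
  rw [← hΨ] at i1 i0
  have k1 : (ex w fun η => xv (a τ) η * xv (b τ) η * Ψ η)
      = Ψ (fun _ => true) * ex w fun η => xv (a τ) η * xv (b τ) η := by
    rw [← ex_cmul]
    refine ex_congr _ fun η => ?_
    cases h1 : η (a τ)
    · simp [xv, h1]
    · cases h2 : η (b τ)
      · simp [xv, h2]
      · rw [hd η (fun _ => true) (by rintro v (rfl | rfl) <;> assumption)]; ring
  have k0 : (ex w fun η => (1 - xv (a τ) η) * (1 - xv (b τ) η) * Ψ η)
      = Ψ (fun _ => false) * ex w fun η => (1 - xv (a τ) η) * (1 - xv (b τ) η) := by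
    rw [← ex_cmul]
    refine ex_congr _ fun η => ?_
    cases h1 : η (a τ)
    · cases h2 : η (b τ)
      · rw [hd η (fun _ => false) (by rintro v (rfl | rfl) <;> assumption)]; ring
      · simp [xv, h2]
    · simp [xv, h1]
  have l1 : (ex w fun η => xv (a τ) η * xv (b τ) η) -
      (ex w fun η => xv (a τ) η * xv (b τ) η * xv t η) ≤ sepw w (a τ) t := by
    rw [← ex_sub]
    refine ex_mono g.nonneg fun η => ?_
    rcases xv_01 (a τ) η with h1 | h1 <;> rcases xv_01 (b τ) η with h2 | h2 <;>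
      rcases xv_01 t η with h3 | h3 <;> simp [h1, h2, h3]
  have l0 : (ex w fun η => (1 - xv (a τ) η) * (1 - xv (b τ) η) * xv t η) ≤ sepw w (a τ) t := by
    refine ex_mono g.nonneg fun η => ?_
    rcases xv_01 (a τ) η with h1 | h1 <;> rcases xv_01 (b τ) η with h2 | h2 <;>
      rcases xv_01 t η with h3 | h3 <;> simp [h1, h2, h3]
  rw [i1, k1, e1] at l1
  rw [i0, k0, e0] at l0
  constructor
  · by_contra h
    push Not at h
    nlinarith
  · by_contra h
    push Not at h
    nlinarith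

theorem RD.GL.card_psi (hp : T.Pairs a b) {σ : ι} {t : V} (ht : t ∈ T.B σ) (i : ℕ) :
    (univ.image (psi T m σ t (T.dep σ - i))).card ≤ 4 := by
  by_cases hi : i < T.dep σ
  · exact card_four (((psi_dep (m := m) ht i).2 hi).mono (hp.sub _ (T.anc_ne hi)))
  · rw [show T.dep σ - i = 0 by omega]
    exact card_four (p := t) (q := t) (dep_xv (by simp))

/-- The martingale along the path to `σ`. -/
noncomputable def RD.GL.mart (g : T.GL c Z a b m w) {σ : ι} {t : V} (ht : t ∈ T.B σ) :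
    Mart (V → Bool) (T.dep σ) where
  w i := m (T.anc σ i)
  Ψ i := psi T m σ t (T.dep σ - i)
  S i := univ.image (psi T m σ t (T.dep σ - i))
  w_nonneg _ := g.m0 _
  mem i η := mem_image_of_mem _ (mem_univ _)
  cons i hi φ := by
    rw [g.cons _ (T.anc_ne hi) _ (((psi_dep ht i).2 hi).comp φ), T.par_anc hi]
  mart i hi φ := by
    have h1 := ((psi_dep (m := m) ht i).2 hi)
    have h2 := (psi_dep (m := m) ht (i + 1)).1
    have h3 := g.markov _ (T.anc_ne hi) _ _ ((h1.comp φ).mono (T.glueD.QU _)) h2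
    rw [← psi_succ t hi] at h3
    rw [← g.bag _ _ ((h1.mono Set.inter_subset_left).comp₂ h2 fun a b => φ a * (b - a))]
    simp only [mul_sub, ex_sub, h3, sub_self]

theorem escape (g : T.GL c Z a b m w) (hp : T.Pairs a b) (hc : 0 < c) (hc1 : c ≤ 1) {σ σ' : ι}
    {s t : V} (ht : t ∈ T.B σ) (hs : s ∈ T.B σ') {j : ℕ} (hj : j < T.dep σ)
    (hn : ¬ T.Desc (T.anc σ (j + 1)) σ') :
    ∃ z ∈ T.B (T.anc σ j), c ^ 2 * dist t z ≤ 8 * (4 * 75 ^ 4 + 72) * sepw w s t := by
  obtain ⟨θ, hθ, hcost⟩ := (g.mart ht).thresholds (N := 4) hj.le (RD.GL.card_psi hp ht)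
    fun i η => g.psi_mem σ t _ η
  have hg : ∀ x y, |dist t x - dist t y| ≤ dist x y := fun x y => by
    rw [dist_comm t x, dist_comm t y]; exact abs_dist_sub_le x y t
  have main : ∀ k i, i + k = T.dep σ → j ≤ i → ∃ p ∈ T.B (T.anc σ i), ∃ q ∈ T.B (T.anc σ i), ∃ v,
      IsVal (dist t) p q (fun η => gtI (θ i) (psi T m σ t (T.dep σ - i) η)) v ∧
        c ^ 2 * v ≤ 8 * (g.mart ht).cost θ i (T.dep σ) := by
    intro k
    induction k with
    | zero =>
      intro i hi _
      have e : i = T.dep σ := by omega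
      subst e
      rw [T.anc_ge le_rfl]
      refine ⟨t, ht, t, ht, 0, Or.inl ⟨?_, (dist_self t).symm⟩, by simp [Mart.cost]⟩
      funext η
      have := hθ (T.dep σ)
      rw [Nat.sub_self]
      rcases xv_01 t η with h | h
      · simp only [psi, h, gtI]; rw [if_neg (by linarith)]
      · simp only [psi, h, gtI]; rw [if_pos (by linarith)]
    | succ k ih =>
      intro i hi hji
      have hi' : i < T.dep σ := by omega
      obtain ⟨p, hpB, q, hqB, v', hv', hle⟩ := ih (i + 1) (by omega) (by omega)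
      have hr := T.anc_ne hi'
      have hq : (T.Qs (T.anc σ (i + 1))).Nonempty := by
        obtain ⟨q, h1, h2, _⟩ := T.sep _ hr σ σ' (RD.desc_anc σ (i + 1))
          (fun h => hn ((RD.desc_anc_anc (by omega) hi').trans h)) t ht s hs
        exact ⟨q, h1, h2⟩
      obtain ⟨ha, hb⟩ := hp.mem _ hr hq
      obtain ⟨u0, u1⟩ := g.unan hp ht hi' hq
      have hθi := hθ i
      obtain ⟨v, hv⟩ := un_cases (dist t) (p := a (T.anc σ (i + 1))) (q := b (T.anc σ (i + 1)))
        (φ := fun η => gtI (θ i) (psi T m σ t (T.dep σ - i) η))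
        ((((psi_dep (m := m) ht i).2 hi').mono (hp.sub _ hr)).comp _)
        (fun η => by unfold gtI; split_ifs <;> simp)
        (by unfold gtI; exact if_neg (by linarith)) (by unfold gtI; exact if_pos (by linarith))
      obtain ⟨μ, L⟩ := g.law (T.anc σ (i + 1))
      have st := step L hc hc1 ha.1 hb.1 hpB hqB hg hv hv'
      refine ⟨_, by rw [← T.par_anc hi']; exact ha.2, _, by rw [← T.par_anc hi']; exact hb.2, v,
        hv, ?_⟩
      have e : (g.mart ht).cost θ i (T.dep σ)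
          = (g.mart ht).cst θ i + (g.mart ht).cost θ (i + 1) (T.dep σ) :=
        sum_eq_sum_Ico_succ_bot hi' _
      have e2 : (g.mart ht).cst θ i = ex (m (T.anc σ (i + 1))) fun η =>
          |gtI (θ (i + 1)) (psi T m σ t (T.dep σ - (i + 1)) η) -
            gtI (θ i) (psi T m σ t (T.dep σ - i) η)| := rfl
      have e3 : c ^ 2 * (v - v') ≤ c ^ 2 * |v' - v| :=
        mul_le_mul_of_nonneg_left (by rw [abs_sub_comm]; exact le_abs_self _) (by positivity)
      rw [e, e2]
      linarith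
  obtain ⟨p, hpB, q, hqB, v, hv, hle⟩ := main (T.dep σ - j) j (by omega) le_rfl
  have hsU : s ∈ (T.Us (T.anc σ (j + 1)))ᶜ := T.notU (T.anc_ne hj) hn hs
  have k1 : (ex ((g.mart ht).w j) fun η => (g.mart ht).Ψ j η * (1 - (g.mart ht).Ψ j η))
      ≤ sepw w s t := by
    have i1 := g.psi_id ht hj.le (φ := fun η => 1 - 2 * xv s η)
      fun _ => (dep_xv hsU).comp fun x => 1 - 2 * x
    have e : sepw w s t = ex w fun η => |xv s η - psi T m σ t (T.dep σ - j) η| := by
      have e1 : ∀ η, |xv s η - psi T m σ t (T.dep σ - j) η|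
          = xv s η + (1 - 2 * xv s η) * psi T m σ t (T.dep σ - j) η := fun η =>
        abs_xv_sub _ (xv_01 _ _) (g.psi_mem _ _ _ _).1 (g.psi_mem _ _ _ _).2
      have e2 : ∀ η, |xv s η - xv t η| = xv s η + (1 - 2 * xv s η) * xv t η := fun η =>
        abs_xv_sub _ (xv_01 _ _) (g.psi_mem σ t 0 η).1 (g.psi_mem σ t 0 η).2
      simp only [sepw, e1, e2, ex_add, i1]
    change (ex (m (T.anc σ j)) fun η =>
      psi T m σ t (T.dep σ - j) η * (1 - psi T m σ t (T.dep σ - j) η)) ≤ _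
    rw [e, ← g.bag _ _ ((psi_dep (m := m) ht j).1.comp fun y => y * (1 - y))]
    refine ex_mono g.nonneg fun η => ?_
    have h1 := g.psi_mem σ t (T.dep σ - j) η
    rw [abs_xv_sub _ (xv_01 _ _) h1.1 h1.2]
    rcases xv_01 s η with h | h <;> rw [h] <;> nlinarith [h1.1, h1.2]
  have k2 : c ^ 2 * v ≤ 8 * (4 * 75 ^ 4 + 72) * sepw w s t := by
    norm_num at hcost ⊢
    nlinarith
  have c2 : 0 ≤ c ^ 2 := by positivity
  rcases le_total (dist t p) (dist t q) with h | h
  · refine ⟨p, hpB, le_trans (mul_le_mul_of_nonneg_left ?_ c2) k2⟩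
    rcases hv with ⟨_, e⟩ | ⟨_, e⟩ | ⟨_, e⟩ <;> rw [e] <;> linarith
  · refine ⟨q, hqB, le_trans (mul_le_mul_of_nonneg_left ?_ c2) k2⟩
    rcases hv with ⟨_, e⟩ | ⟨_, e⟩ | ⟨_, e⟩ <;> rw [e] <;> linarith

end Vale.Agent.P235.Ts
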