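import Vale.Agent.P235S.SCons

/-! The glued law. Choose `M τ`, `Z` above all `M τ` and all `16 * dist x y`; choose `Lw τ μ` (a law when `μ` is admissible). `m = T.rc (Lw root (dist ..)) fun τ w' => Lw τ (sepw w' (a τ) (b τ))`.
`T.induct`: every `m τ` is a law, since `μ = sepw (m (par τ)) (a τ) (b τ)` is admissible (`a τ = b τ`, or both lie in `B (par τ)`: `lo`, `up`). Consistency by `cons2`; `T.glueD.glue`;
the upper bound by `T.lip` with `C = 1`, `sepw_tri` (compare `Glued.sep_le` in P235/Main.lean). -/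

namespace Vale.Agent.P235.Ts

open Finset

set_option linter.unusedSectionVars false

variable {V ι : Type} [PseudoMetricSpace V] [Fintype V] [DecidableEq V] [Fintype ι] {T : RD V ι}
  {c Z : ℝ} {a b : ι → V} {m : ι → (V → Bool) → ℝ} {w : (V → Bool) → ℝ}

theorem sglue_tri (hw : ∀ η, 0 ≤ w η) (x y z : V) : sepw w x z ≤ sepw w x y + sepw w y z := by
  unfold sepw
  rw [← ex_add]
  exact ex_mono hw fun η => abs_sub_le _ _ _

theorem sglue_self (w : (V → Bool) → ℝ) (x : V) : sepw w x x = 0 := by simp [sepw, ex]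

theorem exists_GL (hp : T.Pairs a b) (hc1 : c ≤ 1) (hL : ∀ τ, HasLaw (T.B τ) c (a τ) (b τ)) :
    ∃ Z m w, T.GL c Z a b m w := by
  classical
  choose M hM using hL
  obtain ⟨Z₁, hZ₁⟩ := (Set.finite_range M).bddAbove
  obtain ⟨Z₂, hZ₂⟩ := (Set.finite_range fun z : V × V => 16 * dist z.1 z.2 + 1).bddAbove
  have h1 : ∀ τ, M τ ≤ max Z₁ Z₂ := fun τ => le_max_of_le_left (hZ₁ ⟨τ, rfl⟩)
  have h2 : ∀ x y : V, 16 * dist x y < max Z₁ Z₂ := fun x y =>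
    (lt_add_one _).trans_le (le_max_of_le_right (hZ₂ ⟨(x, y), rfl⟩))
  generalize max Z₁ Z₂ = Z at h1 h2
  have h3 : ∀ τ (μ : ℝ), ∃ w, c * dist (a τ) (b τ) ≤ μ → μ ≤ dist (a τ) (b τ) →
      Law (T.B τ) c Z (a τ) (b τ) μ w := fun τ μ => by
    by_cases h : c * dist (a τ) (b τ) ≤ μ ∧ μ ≤ dist (a τ) (b τ)
    · obtain ⟨w, hw⟩ := hM τ Z (h1 τ) μ h.1 h.2
      exact ⟨w, fun _ _ => hw⟩
    · exact ⟨0, fun g1 g2 => (h ⟨g1, g2⟩).elim⟩
  choose Lw hLw using h3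
  obtain ⟨m, m0, m1⟩ : ∃ m : ι → (V → Bool) → ℝ,
      m T.root = Lw T.root (dist (a T.root) (b T.root)) ∧
      ∀ τ ≠ T.root, m τ = Lw τ (sepw (m (T.par τ)) (a τ) (b τ)) :=
    ⟨T.rc (Lw T.root (dist (a T.root) (b T.root))) fun τ w' => Lw τ (sepw w' (a τ) (b τ)),
      T.rc_root _ _, fun τ hτ => T.rc_step _ _ hτ⟩
  have step : ∀ τ ≠ T.root, (∃ μ, Law (T.B (T.par τ)) c Z (a (T.par τ)) (b (T.par τ)) μ
      (m (T.par τ))) → Law (T.B τ) c Z (a τ) (b τ) (sepw (m (T.par τ)) (a τ) (b τ)) (m τ) := by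
    rintro τ hτ ⟨μ, hμ⟩
    rw [m1 τ hτ]
    rcases hp.eq τ hτ with e | e
    · refine hLw τ _ ?_ ?_ <;> rw [e, sglue_self, dist_self]
      rw [mul_zero]
    · obtain ⟨ha, hb⟩ := hp.mem τ hτ e
      exact hLw τ _ (hμ.lo _ ha.2 _ hb.2) (hμ.up _ ha.2 _ hb.2)
  have law : ∀ τ, ∃ μ, Law (T.B τ) c Z (a τ) (b τ) μ (m τ) :=
    T.induct ⟨_, m0 ▸ hLw T.root _ (mul_le_of_le_one_left dist_nonneg hc1) le_rfl⟩
      fun τ hτ ih => ⟨_, step τ hτ ih⟩
  have cons : ∀ τ ≠ T.root, ∀ F, Dep F (T.Qs τ) → ex (m τ) F = ex (m (T.par τ)) F := by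
    intro τ hτ F hF
    have g1 := step τ hτ (law _)
    obtain ⟨μ, g2⟩ := law (T.par τ)
    exact cons2 g1.symm g2.symm (g1.tot.trans g2.tot.symm) g1.ab (hF.mono (hp.sub τ hτ))
  obtain ⟨w, w0, w1, w2⟩ := T.glueD.glue m (fun τ => (law τ).choose_spec.nonneg) cons
  refine ⟨Z, m, w, w0, h2, law, cons, w1, w2, fun x y => ?_⟩
  have h4 := T.lip (sepw w) 1 zero_le_one (fun x => (sglue_self w x).le) (sglue_tri w0)
    (fun τ x hx y hy => ?_) x y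
  · rwa [one_mul] at h4
  · obtain ⟨μ, g⟩ := law τ
    rw [one_mul, sepw, w1 τ _ ((dep_xv hx).comp₂ (dep_xv hy) fun a b => |a - b|)]
    exact g.up x hx y hy

end Vale.Agent.P235.Ts
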