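import Vale.Agent.P235S.SBase

/-! Level sets and symmetrisation. `lev_law`: the weights of `lev l 0 W` of P235/Engine.lean or P235/Cut*.lean (`lev_eq_ex`, `lev_sep_eq`, `W` above all `l x`), or any construction of the
superlevel sets `{l > t}`, `t ≥ 0`, of `l = dist a ·`. The third clause follows from the second if the law is a chain of cuts avoiding `a`: `xv a = 0` on the support and
`2 * x * y = x + y - |x - y|`, `xv x = |xv a - xv x|`. One can also avoid chains: take any `L0 ≥ 0` with `sepw L0 x y = |l x - l y|` (`Ap.lw`, `Ap.lw_sum`, `cs_eq`) and flip every cut that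
contains `a` (push forward along `η ↦ fun v => xor (η v) (η a)`); then `ex L (xv x * xv y) = (l x + l y - |l x - l y|) / 2`.
`sym_law`: `w η = (u η + u (!η)) / 2` plus `(Z - ex u 1) / 2` on the two constant cuts (if `V` is empty they coincide; use a sum of two `if`). `law_triv`: `sym_law` with `u = 0`. -/

namespace Vale.Agent.P235.Ts

open Finset

set_option linter.unusedSectionVars false

variable {V : Type} [PseudoMetricSpace V] [Fintype V] [DecidableEq V]

theorem slawb_push {X : Type} [Fintype X] [DecidableEq X] (T : X → X) (u F : X → ℝ) :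
    ex (fun ζ => ∑ η, if T η = ζ then u η else 0) F = ex u fun η => F (T η) := by
  simp only [ex, sum_mul]
  rw [sum_comm]
  refine sum_congr rfl fun η _ => ?_
  simp [ite_mul]

theorem slawb_ex (u : (V → Bool) → ℝ) (d : ℝ) (F : (V → Bool) → ℝ) :
    ex (fun η => (u η + u fun v => !η v) / 2 + ((if η = fun _ => true then d else 0) +
      if η = fun _ => false then d else 0)) F =
      (ex u F + ex u fun η => F fun v => !η v) / 2 +
        (d * F (fun _ => true) + d * F fun _ => false) := by
  have hi : Function.Involutive fun (η : V → Bool) v => !η v := fun η => by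
    funext v
    simp
  have h1 : ∑ η : V → Bool, (u fun v => !η v) * F η = ∑ η, u η * F fun v => !η v := by
    rw [← Equiv.sum_comp hi.toPerm]
    refine sum_congr rfl fun η _ => ?_
    simp [Function.Involutive.toPerm]
  simp only [ex, add_mul, sum_add_distrib, ite_mul, zero_mul, sum_ite_eq', mem_univ, if_true,
    div_mul_eq_mul_div, ← sum_div, h1]

theorem lev_law (a : V) : ∃ L : (V → Bool) → ℝ, (∀ η, 0 ≤ L η) ∧
    (∀ x y, sepw L x y = |dist a x - dist a y|) ∧
    ∀ x y, min (dist a x) (dist a y) ≤ ex L fun η => (1 - xv a η) * xv x η * xv y η := by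
  have h0 : ∀ η : V → Bool, 0 ≤ Ap.lw η (dist a) := fun η => ENNReal.toReal_nonneg
  have h1 : ∀ x y, sepw (fun η => Ap.lw η (dist a)) x y = |dist a x - dist a y| := fun x y => by
    rw [← cs_eq]
    exact Ap.lw_sum (dist a) x y
  refine ⟨fun ζ => ∑ η : V → Bool, if (fun v => xor (η v) (η a)) = ζ then Ap.lw η (dist a) else 0,
    fun ζ => sum_nonneg fun η _ => ?_, fun x y => ?_, fun x y => ?_⟩
  · split_ifs
    · exact h0 η
    · exact le_rfl
  · rw [← h1, sepw, slawb_push, sepw]
    refine ex_congr _ fun η => ?_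
    cases η a <;> cases hx : η x <;> cases hy : η y <;> simp [xv, hx, hy]
  · rw [slawb_push]
    have e : ∀ η : V → Bool, (1 - xv a fun v => xor (η v) (η a)) *
        (xv x fun v => xor (η v) (η a)) * (xv y fun v => xor (η v) (η a)) =
        1 / 2 * (|xv a η - xv x η| + |xv a η - xv y η| - |xv x η - xv y η|) := fun η => by
      cases ha : η a <;> cases hx : η x <;> cases hy : η y <;> simp [xv, ha, hx, hy] <;> norm_num
    have h2 := h1 a x
    have h3 := h1 a y
    have h4 := h1 x y
    rw [dist_self, zero_sub, abs_neg, abs_of_nonneg dist_nonneg] at h2 h3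
    unfold sepw at h2 h3 h4
    rw [ex_congr _ e, ex_cmul, ex_sub, ex_add, h2, h3, h4]
    rcases le_total (dist a x) (dist a y) with h | h
    · rw [min_eq_left h, abs_of_nonpos (sub_nonpos.2 h)]
      linarith
    · rw [min_eq_right h, abs_of_nonneg (sub_nonneg.2 h)]
      linarith

theorem sym_law {u : (V → Bool) → ℝ} (hu : ∀ η, 0 ≤ u η) {Z : ℝ} (hZ : ex u (fun _ => 1) ≤ Z) :
    ∃ w : (V → Bool) → ℝ, (∀ η, 0 ≤ w η) ∧
      (∀ F : (V → Bool) → ℝ, ex w (fun η => F fun v => !η v) = ex w F) ∧
      ex w (fun _ => 1) = Z ∧ (∀ x y, sepw w x y = sepw u x y) ∧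
      ∀ F : (V → Bool) → ℝ, (∀ η, 0 ≤ F η) → ex u F ≤ 2 * ex w F := by
  have hd : 0 ≤ (Z - ex u fun _ => 1) / 2 := by linarith
  refine ⟨fun η => (u η + u fun v => !η v) / 2 +
    ((if η = fun _ => true then (Z - ex u fun _ => 1) / 2 else 0) +
      if η = fun _ => false then (Z - ex u fun _ => 1) / 2 else 0), fun η => ?_, fun F => ?_, ?_,
    fun x y => ?_, fun F hF => ?_⟩
  · have h1 := hu η
    have h2 := hu fun v => !η v
    beta_reduce
    split_ifs <;> linarith
  · rw [slawb_ex, slawb_ex]
    simp only [Bool.not_not, Bool.not_true, Bool.not_false]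
    ring
  · rw [slawb_ex]
    ring
  · rw [sepw, slawb_ex, sepw]
    have e : ∀ η : V → Bool, |(xv x fun v => !η v) - xv y fun v => !η v| = |xv x η - xv y η| :=
      fun η => by cases hx : η x <;> cases hy : η y <;> simp [xv, hx, hy]
    rw [ex_congr _ e]
    simp [xv]
  · rw [slawb_ex]
    have h1 := ex_nonneg hu (F := fun η => F fun v => !η v) fun η => hF _
    have h2 := mul_nonneg hd (hF fun _ => true)
    have h3 := mul_nonneg hd (hF fun _ => false)
    linarith

theorem law_triv (c : ℝ) (a : V) : HasLaw (∅ : Set V) c a a := by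
  refine ⟨0, fun Z hZ m h1 h2 => ?_⟩
  obtain ⟨w, w0, w1, w2, -, -⟩ := sym_law (u := fun _ : V → Bool => 0) (fun _ => le_rfl) (Z := Z)
    (by simpa [ex] using hZ)
  rw [dist_self] at h1 h2
  refine ⟨w, w0, w1, w2, fun x hx => hx.elim, fun x hx => hx.elim, ?_, fun x hx => hx.elim⟩
  have h3 : m = 0 := by linarith
  simp [sepw, ex, h3]

end Vale.Agent.P235.Ts
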