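import Vale.Agent.P235S.SLawA
import Vale.Agent.P235S.SLawB

/-! Laws of a bag. `w0` from `Ex`, `L` from `lev_law a`, `w1` from `cone_law`; `M` = sum of the three masses. `λ = m / dist a b` (`1 / 2` if `dist a b = 0`), so `c / 1000 ≤ λ ≤ 1` and
`m = λ * dist a b`; `u = λ / 2 * (w0 + L) + (1 - λ) * w1`, `w` from `sym_law`. Put `D = dist x y`, `s = min (x a) (x b) + min (y a) (y b)`. Lower bound: if `D ≤ s` both parts give `c / 240`.
If `s < D`: when `λ ≥ 1 / 500` use `λ / 2 * c * D`; otherwise `x`, `y` are near different points of `a, b` (else `D ≤ s`), so `sepw w0 x y` and `sepw L x y` are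
`≥ dist a b - s ≥ D - 2 s` (`RTD.sepw_tri`, `RTD.sepw_comm`), and also `≥ 0`, and `λ * max 0 (D - 2 s) + c / 480 * s ≥ c / 1000 * D`. -/

namespace Vale.Agent.P235.Ts

open Finset

set_option linter.unusedSectionVars false

variable {V : Type} [PseudoMetricSpace V] [Fintype V] [DecidableEq V]

theorem slaw_lo {c l D s S0 SL S1 : ℝ} (hc : 0 < c) (l1 : c / 1000 ≤ l) (l2 : l ≤ 1) (hD : 0 ≤ D)
    (hs : 0 ≤ s) (h0 : c * D ≤ S0) (hL : 0 ≤ SL) (h1 : c / 240 * min D s ≤ S1)
    (h : s < D → D - 2 * s ≤ S0 ∧ D - 2 * s ≤ SL) :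
    c / 1000 * D ≤ l / 2 * S0 + l / 2 * SL + (1 - l) * S1 := by
  have l0 : 0 ≤ l := le_trans (by positivity) l1
  have cD : 0 ≤ c * D := mul_nonneg hc.le hD
  have cs : 0 ≤ c * s := mul_nonneg hc.le hs
  have a1 := mul_le_mul_of_nonneg_left h0 l0
  have a2 := mul_nonneg l0 hL
  have a3 := mul_le_mul_of_nonneg_left h1 (sub_nonneg.2 l2)
  rcases le_or_gt D s with h2 | h2
  · rw [min_eq_left h2] at a3
    have a4 := mul_nonneg l0 cD
    linarith
  · rw [min_eq_right h2.le] at a3
    rcases le_total (1 / 500) l with h3 | h3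
    · have a4 := mul_le_mul_of_nonneg_right h3 cD
      have a5 := mul_nonneg (sub_nonneg.2 l2) cs
      linarith
    · obtain ⟨h4, h5⟩ := h h2
      have a4 := mul_le_mul_of_nonneg_right l1 (add_nonneg (cD.trans h0) hL)
      have a5 := mul_le_mul_of_nonneg_left (add_le_add h4 h5) hc.le
      have a6 := mul_le_mul_of_nonneg_right h3 cs
      linarith

theorem slaw_far {S : V → V → ℝ} (tri : ∀ x y z, S x z ≤ S x y + S y z) (comm : ∀ x y, S x y = S y x)
    {a b x y : V} (e : S a b = dist a b) (h1 : S a x ≤ dist a x) (h2 : S b x ≤ dist b x)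
    (h3 : S a y ≤ dist a y) (h4 : S b y ≤ dist b y)
    (h : min (dist x a) (dist x b) + min (dist y a) (dist y b) < dist x y) :
    dist x y - 2 * (min (dist x a) (dist x b) + min (dist y a) (dist y b)) ≤ S x y := by
  have t1 := tri a x b
  have t2 := tri x y b
  have t3 := tri a y b
  have t4 := tri y x b
  have d1 := dist_triangle_right x y a
  have d2 := dist_triangle_right x y b
  have d3 := dist_triangle4 x a b y
  have d4 := dist_triangle4 y a b x
  rw [comm y b] at t2
  rw [comm y x, comm x b] at t4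
  rw [dist_comm a x] at h1
  rw [dist_comm b x] at h2 d4
  rw [dist_comm a y] at h3
  rw [dist_comm b y] at h4 d3
  rw [dist_comm y x] at d4
  rw [comm x b] at t1
  rw [comm y b] at t3
  have t5 := tri b y x
  have t6 := tri b x y
  rw [comm y x] at t5
  rcases min_choice (dist x a) (dist x b) with a1 | a1 <;>
    rcases min_choice (dist y a) (dist y b) with a2 | a2 <;> rw [a1, a2] at h ⊢ <;> linarith

theorem law_exists {B : Set V} {c : ℝ} {a b : V} (ha : a ∈ B) (hb : b ∈ B) (hc : 0 < c)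
    (hc1 : c ≤ 1) (h : Ex B c a b) : HasLaw B (c / 1000) a b := by
  obtain ⟨w1, p1, b1⟩ := cone_law ha hb hc hc1 h
  obtain ⟨w0, p0, b0, e0⟩ := h
  obtain ⟨L, pL, eL, escL⟩ := lev_law a
  refine ⟨ex w0 (fun _ => 1) + ex L (fun _ => 1) + ex w1 (fun _ => 1), fun Z hZ m m1 m2 => ?_⟩
  obtain ⟨l, l1, l2, l3⟩ : ∃ l : ℝ, c / 1000 ≤ l ∧ l ≤ 1 ∧ m = l * dist a b := by
    rcases (dist_nonneg : 0 ≤ dist a b).eq_or_lt with h0 | h0
    · rw [← h0] at m1 m2 ⊢
      exact ⟨1, by linarith, le_rfl, by linarith⟩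
    · exact ⟨m / dist a b, (le_div_iff₀ h0).2 m1, (div_le_one h0).2 m2,
        (div_mul_cancel₀ m h0.ne').symm⟩
  have l0 : 0 ≤ l := le_trans (by positivity) l1
  have l4 : 0 ≤ l / 2 := by linarith
  have l5 : 0 ≤ 1 - l := by linarith
  obtain ⟨u, hu⟩ : ∃ u : (V → Bool) → ℝ,
      ∀ η, u η = l / 2 * w0 η + l / 2 * L η + (1 - l) * w1 η := ⟨_, fun _ => rfl⟩
  have pu : ∀ η, 0 ≤ u η := fun η => by
    rw [hu]
    exact add_nonneg (add_nonneg (mul_nonneg l4 (p0 η)) (mul_nonneg l4 (pL η)))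
      (mul_nonneg l5 (p1 η))
  have eu : ∀ F, ex u F = l / 2 * ex w0 F + l / 2 * ex L F + (1 - l) * ex w1 F := fun F => by
    simp only [ex, hu, add_mul, sum_add_distrib, mul_assoc, ← mul_sum]
  have su : ∀ x y, sepw u x y =
      l / 2 * sepw w0 x y + l / 2 * sepw L x y + (1 - l) * sepw w1 x y := fun x y => eu _
  have hZ' : ex u (fun _ => 1) ≤ Z := by
    rw [eu]
    have a0 := mul_le_of_le_one_left (ex_nonneg p0 (F := fun _ => 1) fun _ => zero_le_one)
      (by linarith : l / 2 ≤ 1)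
    have a1 := mul_le_of_le_one_left (ex_nonneg pL (F := fun _ => 1) fun _ => zero_le_one)
      (by linarith : l / 2 ≤ 1)
    have a2 := mul_le_of_le_one_left (ex_nonneg p1 (F := fun _ => 1) fun _ => zero_le_one)
      (by linarith : 1 - l ≤ 1)
    linarith
  obtain ⟨w, q1, q2, q3, q4, q5⟩ := sym_law pu hZ'
  have uL : ∀ x y, sepw L x y ≤ dist x y := fun x y => by
    rw [eL, dist_comm a x, dist_comm a y]
    exact abs_dist_sub_le x y a
  have eab : sepw L a b = dist a b := by
    rw [eL, dist_self, zero_sub, abs_neg, abs_of_nonneg dist_nonneg]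
  refine ⟨w, q1, q2, q3, fun x hx y hy => ?_, fun x hx y hy => ?_, ?_, fun x hx y hy => ?_⟩
  · rw [q4, su]
    refine slaw_lo hc l1 l2 dist_nonneg
      (add_nonneg (le_min dist_nonneg dist_nonneg) (le_min dist_nonneg dist_nonneg))
      (b0 x hx y hy).1 (by rw [eL]; exact abs_nonneg _) (b1 x hx y hy).1 fun hs => ⟨?_, ?_⟩
    · exact slaw_far (RTD.sepw_tri p0) (RTD.sepw_comm w0) e0 (b0 a ha x hx).2 (b0 b hb x hx).2
        (b0 a ha y hy).2 (b0 b hb y hy).2 hs
    · exact slaw_far (RTD.sepw_tri pL) (RTD.sepw_comm L) eab (uL _ _) (uL _ _) (uL _ _) (uL _ _) hs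
  · rw [q4, su]
    have a0 := mul_le_mul_of_nonneg_left (b0 x hx y hy).2 l4
    have a1 := mul_le_mul_of_nonneg_left (uL x y) l4
    have a2 := mul_le_mul_of_nonneg_left ((b1 x hx y hy).2.trans (min_le_left _ _)) l5
    linarith
  · have a0 : sepw w1 a b = 0 := by
      refine le_antisymm ((b1 a ha b hb).2.trans ((min_le_right _ _).trans ?_))
        (ex_nonneg p1 fun _ => abs_nonneg _)
      have a1 := min_le_left (dist a a) (dist a b)
      have a2 := min_le_right (dist b a) (dist b b)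
      rw [dist_self] at a1 a2 ⊢
      rw [dist_self]
      linarith
    rw [q4, su, e0, eab, a0, l3]
    ring
  · have hF : ∀ η : V → Bool, 0 ≤ (1 - xv a η) * xv x η * xv y η := fun η => by
      unfold xv
      split_ifs <;> norm_num
    have a0 := q5 _ hF
    rw [eu] at a0
    have a1 := mul_nonneg l4 (ex_nonneg p0 hF)
    have a2 := mul_nonneg l5 (ex_nonneg p1 hF)
    have a3 := mul_le_mul_of_nonneg_left (escL x y) l4
    have a4 := mul_le_mul_of_nonneg_right l1
      (le_min dist_nonneg dist_nonneg : 0 ≤ min (dist a x) (dist a y))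
    linarith

end Vale.Agent.P235.Ts
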