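import Vale.Agent.P235S.SBase

/-! The cone law. Let `w0` come from `Ex`, `π v = if v ∈ B then v else a`, `d x y = dist (π x) (π y)`. Then `EmbedsL1 d (1 / c)` (`Ap.ofFamily` with
`g x η = w0 η / c * xv (π x) η`, or `cut_embed`). `Ap.cone` with `f x = min (d x a) (d x b)`, then `Ap.toCuts`, `cs_eq`, and multiply the weights by `c / 240`. -/

namespace Vale.Agent.P235.Ts

open Finset

set_option linter.unusedSectionVars false

variable {V : Type} [PseudoMetricSpace V] [Fintype V] [DecidableEq V]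

theorem lawA_smul (k : ℝ) (w : (V → Bool) → ℝ) (x y : V) :
    sepw (fun η => k * w η) x y = k * sepw w x y := by
  simp only [sepw, ex, mul_sum, mul_assoc]

theorem cone_law {B : Set V} {c : ℝ} {a b : V} (ha : a ∈ B) (hb : b ∈ B) (hc : 0 < c)
    (hc1 : c ≤ 1) (h : Ex B c a b) : ∃ w : (V → Bool) → ℝ, (∀ η, 0 ≤ w η) ∧ ∀ x ∈ B, ∀ y ∈ B,
      c / 240 * min (dist x y) (min (dist x a) (dist x b) + min (dist y a) (dist y b))
        ≤ sepw w x y ∧
      sepw w x y ≤ min (dist x y) (min (dist x a) (dist x b) + min (dist y a) (dist y b)) := by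
  obtain ⟨w0, hw0, h1, -⟩ := h
  obtain ⟨π, hπ, hid⟩ : ∃ π : V → V, (∀ v, π v ∈ B) ∧ ∀ v ∈ B, π v = v := by
    classical
    refine ⟨fun v => if v ∈ B then v else a, fun v => ?_, fun v h => if_pos h⟩
    by_cases h : v ∈ B
    · simpa only [if_pos h] using h
    · simpa only [if_neg h] using ha
  obtain ⟨f, hf⟩ := cut_embed (w := fun η => c⁻¹ * w0 η) fun η =>
    mul_nonneg (inv_pos.2 hc).le (hw0 η)
  have hE : EmbedsL1 (fun x y => dist (π x) (π y)) c⁻¹ := ⟨_, _, _, fun x => f (π x), fun x y => by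
    rw [hf, lawA_smul]
    obtain ⟨p, q⟩ := h1 _ (hπ x) _ (hπ y)
    exact ⟨(le_inv_mul_iff₀ hc).2 p, mul_le_mul_of_nonneg_left q (inv_pos.2 hc).le⟩⟩
  obtain ⟨w, hw, hd⟩ := Ap.toCuts (Ap.cone hE ((one_le_inv₀ hc).2 hc1)
    (f := fun x => min (dist (π x) a) (dist (π x) b)) (fun x => le_min dist_nonneg dist_nonneg)
    fun x y => (abs_min_sub_min_le_max _ _ _ _).trans
      (max_le (abs_dist_sub_le _ _ _) (abs_dist_sub_le _ _ _)))
  have hk : 0 ≤ c / 240 := by positivity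
  refine ⟨fun η => c / 240 * w η, fun η => mul_nonneg hk (hw η), fun x hx y hy => ?_⟩
  obtain ⟨p, q⟩ := hd x y
  simp only [cs_eq, hid x hx, hid y hy] at p q
  rw [lawA_smul]
  refine ⟨mul_le_mul_of_nonneg_left p hk, (mul_le_mul_of_nonneg_left q hk).trans_eq ?_⟩
  field_simp

end Vale.Agent.P235.Ts
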