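import Vale.Agent.P235S.SBase

/-! Rooting a tree decomposition: adapt `exists_RTD` of P235/Concrete.lean (no extra root vertex, no extra node; `exists_rooting`, `cross_walk`). For `sep`, a walk from `x` to `y`
exists (`hG`), so `key` gives a first point of the finite set `B τ ∩ B (par τ)`; minimise over it (`Set.exists_min_image`). -/

namespace Vale.Agent.P235.Ts

open Finset

set_option linter.unusedSectionVars false

variable {V ι : Type} {G : SimpleGraph V} {ℓ : Sym2 V → ℝ} {B : ι → Set V}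

theorem exists_RD [Fintype V] (hG : G.Connected) (hℓ : ∀ e ∈ G.edgeSet, 0 < ℓ e)
    {T : SimpleGraph ι} (hT : T.IsTree) (hE : ∀ x y, G.Adj x y → ∃ t, x ∈ B t ∧ y ∈ B t)
    (hC : ∀ v, (T.induce {t | v ∈ B t}).Connected) :
    ∃ D : @RD V ι (spMetric hG hℓ), @RD.B V ι (spMetric hG hℓ) D = B := by
  classical
  let _ := spMetric hG hℓ
  obtain ⟨ρ⟩ := hT.connected.nonempty
  obtain ⟨par, dep, h1, h2, h3, h4⟩ := exists_rooting hT ρ
  have ri : ∀ τ σ σ', (∃ k, par^[k] σ = τ) → (¬ ∃ k, par^[k] σ' = τ) →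
      ∀ x ∈ B σ, x ∈ B σ' → x ∈ B τ ∧ x ∈ B (par τ) := by
    intro τ a b d1 d2 x ha hb
    obtain ⟨p⟩ := hC x ⟨a, ha⟩ ⟨b, hb⟩
    obtain ⟨α, β, k1, k2, k3⟩ := cross_walk (fun z : {t | x ∈ B t} =>
      ∃ k, par^[k] z.1 = τ) p d1 d2
    have k4 : T.Adj α.1 β.1 := k1
    rcases h4 _ _ k4 with h | h
    · obtain ⟨n, hn⟩ := k2
      cases n with
      | zero =>
        have hn : α.1 = τ := hn
        rw [← hn, h]
        exact ⟨α.2, β.2⟩
      | succ n => exact absurd ⟨n, by rwa [Function.iterate_succ_apply, h] at hn⟩ k3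
    · obtain ⟨n, hn⟩ := k2
      exact absurd ⟨n + 1, by rwa [Function.iterate_succ_apply, h]⟩ k3
  have edge : ∀ {x y : V}, G.Adj x y → dist x y ≤ ℓ s(x, y) := fun h =>
    (spDist_le hℓ (SimpleGraph.Walk.cons h SimpleGraph.Walk.nil)).trans_eq (by simp)
  refine ⟨{
    par := par
    dep := dep
    root := ρ
    dep_root := h2
    par_root := h1
    dep_par := h3
    B := B
    cover := fun v => ?_
    ri := fun τ _ σ σ' d1 d2 x => ri τ σ σ' d1 d2 x
    sep := fun τ _ σ σ' d1 d2 x hx y hy => ?_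
    lip := fun F C C0 F0 Ft Fb x y => ?_ }, rfl⟩
  · obtain ⟨t⟩ := (hC v).nonempty
    exact ⟨t.1, t.2⟩
  · have key : ∀ {x y : V} (p : G.Walk x y), (∃ σ, (∃ k, par^[k] σ = τ) ∧ x ∈ B σ) → y ∈ B σ' →
        ∃ q ∈ B τ ∩ B (par τ), dist x q + dist q y ≤ (p.edges.map ℓ).sum := by
      intro x y p
      induction p with
      | nil =>
        rintro ⟨σ, d1, hx⟩ hy
        exact ⟨_, ri τ σ σ' d1 d2 _ hx hy, by simp⟩
      | @cons u v w h p ih =>
        rintro ⟨σ, d1, hx⟩ hy
        obtain ⟨t, t1, t2⟩ := hE u v h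
        by_cases ht : ∃ k, par^[k] t = τ
        · obtain ⟨q, q1, q2⟩ := ih ⟨t, ht, t2⟩ hy
          refine ⟨q, q1, ?_⟩
          simp only [SimpleGraph.Walk.edges_cons, List.map_cons, List.sum_cons]
          linarith [dist_triangle u v q, edge h]
        · refine ⟨u, ri τ σ _ d1 ht u hx t1, ?_⟩
          rw [_root_.dist_self, zero_add]
          exact spDist_le hℓ _
    obtain ⟨p₀⟩ := hG x y
    obtain ⟨q₀, hq₀, -⟩ := key p₀ ⟨σ, d1, hx⟩ hy
    obtain ⟨q, q1, q2⟩ := Set.exists_min_image (B τ ∩ B (par τ))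
      (fun q => dist x q + dist q y) (Set.toFinite _) ⟨q₀, hq₀⟩
    refine ⟨q, q1.1, q1.2, le_spDist hG fun p => ?_⟩
    obtain ⟨q', a, b⟩ := key p ⟨σ, d1, hx⟩ hy
    exact (q2 q' a).trans b
  · have key : ∀ {x y : V} (p : G.Walk x y), F x y ≤ C * (p.edges.map ℓ).sum := by
      intro x y p
      induction p with
      | nil => simpa using F0 _
      | @cons u v w h p ih =>
        obtain ⟨t, t1, t2⟩ := hE u v h
        have a := Fb t u t1 v t2
        have b := mul_le_mul_of_nonneg_left (edge h) C0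
        simp only [SimpleGraph.Walk.edges_cons, List.map_cons, List.sum_cons]
        linarith [Ft u v w]
    rcases C0.eq_or_lt with h0 | h0
    · obtain ⟨p⟩ := hG x y
      have := key p
      rw [← h0, zero_mul] at this ⊢
      exact this
    · rw [← div_le_iff₀' h0]
      exact le_spDist hG fun p => (div_le_iff₀' h0).2 (key p)

end Vale.Agent.P235.Ts
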