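import Vale.Agent.P235S.SBase

/-! Exact laws. `ex_of_sub`: let `π v = if h : v ∈ B then ⟨v, h⟩ else ⟨a, ha⟩` and push `w` forward: `w' ζ = ∑ η, if ζ = (fun v => η (π v)) then w η else 0`; then
`sepw w' x y = Ap.cs w (π x) (π y)` (`cs_eq`, unfold `Ap.cs`, `Finset.sum_comm`, `Finset.sum_ite_eq`). -/

namespace Vale.Agent.P235.Ts

open Finset

set_option linter.unusedSectionVars false

variable {V : Type} [PseudoMetricSpace V] [Fintype V] [DecidableEq V]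

theorem SSm_push {W : Type} [Fintype W] (π : V → W) {w : (W → Bool) → ℝ} (h0 : ∀ η, 0 ≤ w η) :
    ∃ w' : (V → Bool) → ℝ, (∀ ζ, 0 ≤ w' ζ) ∧ ∀ x y, sepw w' x y = Ap.cs w (π x) (π y) := by
  classical
  refine ⟨fun ζ => ∑ η : W → Bool, if ζ = (fun v => η (π v)) then w η else 0,
    fun ζ => sum_nonneg fun η _ => ?_, fun x y => ?_⟩
  · split_ifs
    · exact h0 η
    · exact le_rfl
  · rw [← cs_eq]
    unfold Ap.cs
    simp only [sum_mul, ite_mul, zero_mul]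
    rw [sum_comm]
    refine sum_congr (by ext; simp) fun η _ => ?_
    simp only [sum_ite_eq', mem_univ, if_true]
    rfl

theorem ex_of_sub {B : Set V} [Fintype B] {c : ℝ} {a b : V} (ha : a ∈ B) (hb : b ∈ B)
    {w : (B → Bool) → ℝ} (h0 : ∀ η, 0 ≤ w η)
    (h1 : ∀ x y : B, c * dist x.1 y.1 ≤ Ap.cs w x y ∧ Ap.cs w x y ≤ dist x.1 y.1)
    (h2 : Ap.cs w ⟨a, ha⟩ ⟨b, hb⟩ = dist a b) : Ex B c a b := by
  classical
  obtain ⟨w', a1, a2⟩ := SSm_push (fun v : V => if h : v ∈ B then (⟨v, h⟩ : B) else ⟨a, ha⟩) h0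
  refine ⟨w', a1, fun x hx y hy => ?_, ?_⟩
  · rw [a2, dif_pos hx, dif_pos hy]
    exact h1 ⟨x, hx⟩ ⟨y, hy⟩
  · rw [a2, dif_pos ha, dif_pos hb]
    exact h2

theorem Ex.mono {B : Set V} {c c' : ℝ} {a b : V} (h : Ex B c a b) (hc : c' ≤ c) : Ex B c' a b := by
  obtain ⟨w, h0, h1, h2⟩ := h
  exact ⟨w, h0, fun x hx y hy =>
    ⟨(mul_le_mul_of_nonneg_right hc dist_nonneg).trans (h1 x hx y hy).1, (h1 x hx y hy).2⟩, h2⟩

end Vale.Agent.P235.Ts
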