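import Vale.Agent.P235S.SBase
import Vale.Agent.P235S.SDefs
import Vale.Agent.P235P.ZMain

/-! The metric of a torso. `d = spDist G ℓ`, lengths `tl` on the torso. `≤`-part (`d ≤` length of a torso walk): triangle inequality (`spMetric`). Converse: call two nodes `σ, σ' ≠ t`
equivalent if both are not below `t`, or both are below the same child of `t`; define `N x = {q ∈ B t | q = x ∨ ∃ s ≠ t, x is in a bag of the class whose gate is s and q ∈ B s}`, the gate being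
the child, resp. `par t`. Simplest form: for a node `σ ≠ t` let `gate σ` be `anc σ (dep t + 1)` if `Desc t σ`, else `par t`; `gate σ ≠ t`; `D.ri` gives `B σ ∩ B t ⊆ B (gate σ)`, and
`gate σ = gate σ'` if some `x ∉ B t` lies in `B σ ∩ B σ'`. Induction on a walk `p` of `G` from `x` to `y ∈ B t`: if `x ∈ B t` there is a torso walk from `x` to `y` of length `≤ len p`; if `x ∉ B t`,
`x ∈ B σ`, `q ∈ B t ∩ B (gate σ)` there is a torso walk from `q` to `y` of length `≤ d q x + len p`. `Pl.spDist_pos` gives positivity. -/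

namespace Vale.Agent.P235.Ts

open Finset

set_option linter.unusedSectionVars false

variable {V ι : Type} {G : SimpleGraph V} {ℓ : Sym2 V → ℝ} {B : ι → Set V}

/-- The lengths of the edges of a torso. -/
noncomputable def tl (G : SimpleGraph V) (ℓ : Sym2 V → ℝ) (S : Set V) (e : Sym2 S) : ℝ :=
  Sym2.lift ⟨fun x y : S => (spDist G ℓ x y + spDist G ℓ y x) / 2, fun _ _ => by ring⟩ e

theorem tor_gate [PseudoMetricSpace V] (D : RD V ι) (t : ι) : ∃ γ : ι → ι,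
    (∀ σ ≠ t, γ σ ≠ t) ∧ (∀ σ ≠ t, ∀ x ∈ D.B σ, x ∈ D.B t → x ∈ D.B (γ σ)) ∧
      ∀ σ ≠ t, ∀ σ' ≠ t, ∀ x ∈ D.B σ, x ∈ D.B σ' → x ∉ D.B t → γ σ = γ σ' := by
  classical
  have h1 : ∀ σ, ¬ D.Desc t σ → t ≠ D.root := fun σ h e =>
    h (e ▸ D.anc_zero σ ▸ RD.desc_anc σ 0)
  have h2 : ∀ σ ≠ t, D.Desc t σ → D.dep t < D.dep σ := fun σ h k =>
    not_le.1 fun k' => RD.not_desc h.symm k' k
  have h3 : ∀ σ ≠ t, D.Desc t σ → D.anc σ (D.dep t + 1) ≠ t := fun σ h k e => by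
    have := D.dep_anc (show D.dep t + 1 ≤ D.dep σ from h2 σ h k)
    rw [e] at this
    omega
  refine ⟨fun σ => if D.Desc t σ then D.anc σ (D.dep t + 1) else D.par t, fun σ h => ?_,
    fun σ h x hx hx' => ?_, fun σ h σ' h' x hx hx' hn => ?_⟩
  · dsimp only
    split_ifs with k
    · exact h3 σ h k
    · intro e
      have := D.dep_par t (h1 σ k)
      rw [e] at this
      omega
  · dsimp only
    split_ifs with k
    · exact (D.ri _ (D.anc_ne (h2 σ h k)) σ t (RD.desc_anc _ _) (RD.not_desc (h3 σ h k)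
        (by rw [D.dep_anc (h2 σ h k)]; omega)) x hx hx').1
    · exact (D.ri t (h1 σ k) t σ ⟨0, rfl⟩ k x hx' hx).2
  · dsimp only
    split_ifs with k k' k'
    · by_cases c : D.Desc (D.anc σ (D.dep t + 1)) σ'
      · have := c.anc_eq
        rw [D.dep_anc (h2 σ h k)] at this
        exact this.symm
      · have := (D.ri _ (D.anc_ne (h2 σ h k)) σ σ' (RD.desc_anc _ _) c x hx hx').2
        rw [D.par_anc (h2 σ h k), k.anc_eq] at this
        exact absurd this hn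
    · exact absurd (D.ri t (h1 σ' k') σ σ' k k' x hx hx').1 hn
    · exact absurd (D.ri t (h1 σ k) σ' σ k' k x hx' hx).1 hn
    · rfl

theorem tor_comm (hG : G.Connected) (hℓ : ∀ e ∈ G.edgeSet, 0 < ℓ e) (x y : V) :
    spDist G ℓ x y = spDist G ℓ y x := (spMetric hG hℓ).dist_comm x y

theorem tor_tri (hG : G.Connected) (hℓ : ∀ e ∈ G.edgeSet, 0 < ℓ e) (x y z : V) :
    spDist G ℓ x z ≤ spDist G ℓ x y + spDist G ℓ y z := (spMetric hG hℓ).dist_triangle x y z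

theorem tor_tl (hG : G.Connected) (hℓ : ∀ e ∈ G.edgeSet, 0 < ℓ e) {S : Set V} (x y : S) :
    tl G ℓ S s(x, y) = spDist G ℓ x y := by
  change (spDist G ℓ x y + spDist G ℓ y x) / 2 = _
  rw [tor_comm hG hℓ y x, add_self_div_two]

/-- A short walk in the torso. -/
def tor_W (G : SimpleGraph V) (ℓ : Sym2 V → ℝ) (B : ι → Set V) (t : ι) (x y : B t) (c : ℝ) :
    Prop := ∃ w : (torso G B t).Walk x y, (w.edges.map (tl G ℓ (B t))).sum ≤ c

theorem tor_mono {t : ι} {x y : B t} {c c' : ℝ} (h : tor_W G ℓ B t x y c) (hc : c ≤ c') :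
    tor_W G ℓ B t x y c' := h.imp fun _ k => k.trans hc

theorem tor_hop (hG : G.Connected) (hℓ : ∀ e ∈ G.edgeSet, 0 < ℓ e) {t : ι} {q r y : B t} {c : ℝ}
    (h : G.Adj q.1 r.1 ∨ ∃ s, s ≠ t ∧ q.1 ∈ B s ∧ r.1 ∈ B s) (hw : tor_W G ℓ B t r y c) :
    tor_W G ℓ B t q y (spDist G ℓ q r + c) := by
  by_cases e : q = r
  · subst e
    exact tor_mono hw (le_add_of_nonneg_left (le_spDist hG fun p => len_nonneg hℓ p))
  · obtain ⟨w, hw⟩ := hw
    have ha : (torso G B t).Adj q r := (SimpleGraph.fromRel_adj _ _ _).2 ⟨e, Or.inl h⟩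
    refine ⟨.cons ha w, ?_⟩
    rw [SimpleGraph.Walk.edges_cons, List.map_cons, List.sum_cons, tor_tl hG hℓ]
    exact add_le_add_right hw _

theorem tor_walk (hG : G.Connected) (hℓ : ∀ e ∈ G.edgeSet, 0 < ℓ e)
    (hE : ∀ x y, G.Adj x y → ∃ t, x ∈ B t ∧ y ∈ B t) {t : ι} {γ : ι → ι} (g1 : ∀ σ ≠ t, γ σ ≠ t)
    (g2 : ∀ σ ≠ t, ∀ x ∈ B σ, x ∈ B t → x ∈ B (γ σ))
    (g3 : ∀ σ ≠ t, ∀ σ' ≠ t, ∀ x ∈ B σ, x ∈ B σ' → x ∉ B t → γ σ = γ σ') {x y : V}
    (p : G.Walk x y) (hy : y ∈ B t) :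
    (∀ hx : x ∈ B t, tor_W G ℓ B t ⟨x, hx⟩ ⟨y, hy⟩ (p.edges.map ℓ).sum) ∧
      (x ∉ B t → ∀ σ, x ∈ B σ → ∀ q : B t, q.1 ∈ B (γ σ) →
        tor_W G ℓ B t q ⟨y, hy⟩ (spDist G ℓ q x + (p.edges.map ℓ).sum)) := by
  induction p with
  | nil => exact ⟨fun _ => ⟨.nil, by simp⟩, fun h => absurd hy h⟩
  | @cons x v y h p ih =>
    obtain ⟨i1, i2⟩ := ih hy
    obtain ⟨τ, hx0, hv0⟩ := hE x v h
    have k1 : spDist G ℓ x v ≤ ℓ s(x, v) := by simpa using spDist_le hℓ (.cons h .nil)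
    have k2 : τ ≠ t → ∀ q : B t, q.1 ∈ B (γ τ) →
        tor_W G ℓ B t q ⟨y, hy⟩ (spDist G ℓ q v + (p.edges.map ℓ).sum) := fun hτ q hq => by
      by_cases hv : v ∈ B t
      · exact tor_hop hG hℓ (r := ⟨v, hv⟩) (Or.inr ⟨γ τ, g1 τ hτ, hq, g2 τ hτ v hv0 hv⟩) (i1 hv)
      · exact i2 hv τ hv0 q hq
    rw [SimpleGraph.Walk.edges_cons, List.map_cons, List.sum_cons]
    refine ⟨fun hx => tor_mono ?_ (add_le_add_left k1 _), fun hx σ hσ q hq => ?_⟩
    · by_cases hv : v ∈ B t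
      · exact tor_hop hG hℓ (q := ⟨x, hx⟩) (r := ⟨v, hv⟩) (Or.inl h) (i1 hv)
      · have hτ : τ ≠ t := fun e => hv (e ▸ hv0)
        exact k2 hτ ⟨x, hx⟩ (g2 τ hτ x hx0 hx)
    · have hτ : τ ≠ t := fun e => hx (e ▸ hx0)
      refine tor_mono (k2 hτ q (g3 σ (fun e => hx (e ▸ hσ)) τ hτ x hσ hx0 hx ▸ hq)) ?_
      linarith [tor_tri hG hℓ q x v]

theorem tor_low (hG : G.Connected) (hℓ : ∀ e ∈ G.edgeSet, 0 < ℓ e) {t : ι} {x y : B t}
    (w : (torso G B t).Walk x y) : spDist G ℓ x y ≤ (w.edges.map (tl G ℓ (B t))).sum := by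
  induction w with
  | @nil x => simpa using spDist_le hℓ (SimpleGraph.Walk.nil : G.Walk x x)
  | @cons x v y h w ih =>
    rw [SimpleGraph.Walk.edges_cons, List.map_cons, List.sum_cons, tor_tl hG hℓ]
    exact (tor_tri hG hℓ x v y).trans (add_le_add_right ih _)

theorem torso_dist [Fintype V] (hG : G.Connected) (hℓ : ∀ e ∈ G.edgeSet, 0 < ℓ e)
    (hE : ∀ x y, G.Adj x y → ∃ t, x ∈ B t ∧ y ∈ B t) (D : @RD V ι (spMetric hG hℓ))
    (hD : @RD.B V ι (spMetric hG hℓ) D = B) (t : ι) :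
    (torso G B t).Preconnected ∧ (∀ e ∈ (torso G B t).edgeSet, 0 < tl G ℓ (B t) e) ∧
      ∀ x y : B t, spDist (torso G B t) (tl G ℓ (B t)) x y = spDist G ℓ x y := by
  letI := spMetric hG hℓ
  obtain ⟨γ, g1, g2, g3⟩ := tor_gate D t
  rw [hD] at g2 g3
  have hW : ∀ (x y : B t) (p : G.Walk x y), tor_W G ℓ B t x y (p.edges.map ℓ).sum :=
    fun x y p => (tor_walk hG hℓ hE g1 g2 g3 p y.2).1 x.2
  have hc : (torso G B t).Preconnected := fun x y => by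
    obtain ⟨p⟩ := hG x y
    obtain ⟨w, -⟩ := hW x y p
    exact ⟨w⟩
  have hp : ∀ e ∈ (torso G B t).edgeSet, 0 < tl G ℓ (B t) e := fun e he => by
    induction e using Sym2.ind with
    | _ x y =>
      rw [tor_tl hG hℓ]
      exact Pl.spDist_pos hG hℓ _ _ fun k => ((torso G B t).ne_of_adj he) (Subtype.ext k)
  refine ⟨hc, hp, fun x y => le_antisymm (le_spDist hG fun p => ?_) (le_csInf ?_ ?_)⟩
  · obtain ⟨w, hw⟩ := hW x y p
    exact (spDist_le hp w).trans hw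
  · obtain ⟨w⟩ := hc x y
    exact ⟨_, w, rfl⟩
  · rintro _ ⟨w, rfl⟩
    exact tor_low hG hℓ w

end Vale.Agent.P235.Ts
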