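import Vale.Agent.P235S.Exact

/-! P235: cut measures that are exact from a root, on spaces with few points. -/

open Set Classical

noncomputable section

namespace Vale.Agent.P235.Pl

/-- The part of `t - s` in `[0, γ]`. -/
def clp (s γ t : ℝ) : ℝ := max 0 (min γ (t - s))

theorem clp_sum {s γ : ℝ} (hγ : 0 ≤ γ) (t : ℝ) :
    min t s + clp s γ t + clp (s + γ) γ t + max t (s + 2 * γ) = t + s + 2 * γ := by
  simp only [clp, max_def, min_def]
  split_ifs <;> linarith

theorem clp_same {s γ : ℝ} (hγ : 0 ≤ γ) {t u : ℝ} (h : t ≤ u) :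
    |min t s - min u s| + |clp s γ t - clp s γ u| + |clp (s + γ) γ t - clp (s + γ) γ u| +
      |max t (s + 2 * γ) - max u (s + 2 * γ)| ≤ |t - u| := by
  have m : ∀ s, clp s γ t ≤ clp s γ u := fun s =>
    max_le_max le_rfl (min_le_min le_rfl (by linarith))
  rw [abs_of_nonpos (sub_nonpos.2 (min_le_min_right s h)), abs_of_nonpos (sub_nonpos.2 (m _)),
    abs_of_nonpos (sub_nonpos.2 (m _)), abs_of_nonpos (sub_nonpos.2 (max_le_max_right _ h)),
    abs_of_nonpos (sub_nonpos.2 h)]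
  linarith [clp_sum (s := s) hγ t, clp_sum (s := s) hγ u]

theorem clp_same' {s γ : ℝ} (hγ : 0 ≤ γ) (t u : ℝ) :
    |min t s - min u s| + |clp s γ t - clp s γ u| + |clp (s + γ) γ t - clp (s + γ) γ u| +
      |max t (s + 2 * γ) - max u (s + 2 * γ)| ≤ |t - u| := by
  rcases le_total t u with h | h
  · exact clp_same hγ h
  · have := clp_same (s := s) hγ h
    rwa [abs_sub_comm (min u s), abs_sub_comm (clp s γ u), abs_sub_comm (clp (s + γ) γ u),
      abs_sub_comm (max u _), abs_sub_comm u] at this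

theorem clp_mem {γ : ℝ} (hγ : 0 ≤ γ) (s t : ℝ) : 0 ≤ clp s γ t ∧ clp s γ t ≤ γ :=
  ⟨le_max_left _ _, max_le hγ (min_le_left _ _)⟩

theorem clp_out {s γ : ℝ} (hγ : 0 ≤ γ) {t : ℝ} (h : t ≤ s ∨ s + 2 * γ ≤ t) :
    clp (s + γ) γ t = clp s γ t := by
  simp only [clp, max_def, min_def]
  rcases h with h | h <;> split_ifs <;> linarith

theorem clp_cross {s γ D : ℝ} (hγ : 0 ≤ γ) {t u : ℝ} (h1 : |t - u| ≤ D) (h2 : 2 * γ ≤ D) :
    |min t s - min u s| + |clp (s + γ) γ t - clp s γ u| + |clp s γ t - clp (s + γ) γ u| +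
      |max t (s + 2 * γ) - max u (s + 2 * γ)| ≤ D := by
  have k := clp_same' (s := s) hγ t u
  by_cases ht : t ≤ s ∨ s + 2 * γ ≤ t
  · rw [clp_out hγ ht] at k ⊢
    linarith
  by_cases hu : u ≤ s ∨ s + 2 * γ ≤ u
  · rw [clp_out hγ hu] at k ⊢
    linarith
  push Not at ht hu
  rw [min_eq_right ht.1.le, min_eq_right hu.1.le, max_eq_right ht.2.le, max_eq_right hu.2.le,
    sub_self, sub_self, abs_zero]
  have b : ∀ a a', |clp a γ t - clp a' γ u| ≤ γ := fun a a' =>
    abs_le.2 ⟨by linarith [clp_mem hγ a t, clp_mem hγ a' u],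
      by linarith [clp_mem hγ a t, clp_mem hγ a' u]⟩
  linarith [b (s + γ) s, b s (s + γ)]

theorem small_pair {V : Type} [Fintype V] [PseudoMetricSpace V] {k : ℕ} (hk : Fintype.card V ≤ k)
    {h : V → ℝ} (hh : ∀ x y, |h x - h y| ≤ dist x y) (x y : V) :
    ∃ w : (V → Bool) → ℝ, (∀ η, 0 ≤ w η) ∧
      (∀ z z', |h z - h z'| ≤ Ap.cs w z z' ∧ Ap.cs w z z' ≤ dist z z') ∧
        dist x y ≤ 2 * (k + 1) * Ap.cs w x y := by
  rcases (dist_nonneg (x := x) (y := y)).eq_or_lt with h0 | h0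
  · have e : ∀ z z', Ap.cs (fun η => Ap.lw η h) z z' = |h z - h z'| := Ap.lw_sum h
    refine ⟨fun η => Ap.lw η h, fun _ => ENNReal.toReal_nonneg,
      fun z z' => ⟨(e z z').ge, (e z z').trans_le (hh z z')⟩, ?_⟩
    rw [← h0, e]
    positivity
  obtain ⟨γ, hγ, e⟩ : ∃ γ : ℝ, 0 < γ ∧ dist x y = 2 * (k + 1) * γ :=
    ⟨dist x y / (2 * (k + 1)), by positivity, by field_simp⟩
  have g2 : 0 < 2 * γ := by linarith
  obtain ⟨i, hi, hi'⟩ := Finset.exists_mem_notMem_of_card_lt_card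
    (s := Finset.univ.image fun z => ⌊dist x z / (2 * γ)⌋₊) (t := Finset.range (k + 1))
    (by simpa using Nat.lt_succ_of_le (Finset.card_image_le.trans hk))
  have gap : ∀ z, ¬ dist x z < i * (2 * γ) → (i + 1) * (2 * γ) ≤ dist x z := fun z hz => by
    by_contra k
    refine hi' (Finset.mem_image.2 ⟨z, Finset.mem_univ _, ?_⟩)
    rw [Nat.floor_eq_iff (by positivity), le_div_iff₀ g2, div_lt_iff₀ g2]
    exact ⟨not_lt.1 hz, not_le.1 k⟩
  have hx : dist x x < i * (2 * γ) := by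
    by_contra k
    have := gap x k
    rw [dist_self] at this
    nlinarith [(Nat.cast_nonneg i : (0 : ℝ) ≤ i)]
  have hy : ¬ dist x y < i * (2 * γ) := by
    have : (i : ℝ) ≤ k + 1 := by exact_mod_cast (Finset.mem_range.1 hi).le
    rw [e]
    nlinarith
  set s := h x - γ with hs
  let a : V → ℝ := fun z => if dist x z < i * (2 * γ) then clp (s + γ) γ (h z) else clp s γ (h z)
  let b : V → ℝ := fun z => if dist x z < i * (2 * γ) then clp s γ (h z) else clp (s + γ) γ (h z)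
  have e1 : ∀ z z', Ap.cs (fun η => Ap.lw η (fun z => min (h z) s) + Ap.lw η a + Ap.lw η b +
      Ap.lw η fun z => max (h z) (s + 2 * γ)) z z' = |min (h z) s - min (h z') s| + |a z - a z'| +
        |b z - b z'| + |max (h z) (s + 2 * γ) - max (h z') (s + 2 * γ)| := fun z z' => by
    simp only [Ap.cs, add_mul, Finset.sum_add_distrib, Ap.lw_sum]
  have e2 : ∀ z, min (h z) s + a z + b z + max (h z) (s + 2 * γ) = h z + s + 2 * γ := fun z => by
    simp only [a, b]
    split_ifs <;> linarith [clp_sum (s := s) hγ.le (h z)]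
  have l0 : ∀ η (f : V → ℝ), 0 ≤ Ap.lw η f := fun _ _ => ENNReal.toReal_nonneg
  refine ⟨fun η => Ap.lw η (fun z => min (h z) s) + Ap.lw η a + Ap.lw η b +
      Ap.lw η fun z => max (h z) (s + 2 * γ),
    fun η => add_nonneg (add_nonneg (add_nonneg (l0 _ _) (l0 _ _)) (l0 _ _)) (l0 _ _),
    fun z z' => ⟨le_trans ?_ (e1 z z').ge, (e1 z z').trans_le ?_⟩, ?_⟩
  · refine abs_le.2 ⟨?_, ?_⟩ <;>
      linarith [e2 z, e2 z', abs_le.1 (le_refl |min (h z) s - min (h z') s|),
        abs_le.1 (le_refl |a z - a z'|), abs_le.1 (le_refl |b z - b z'|),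
        abs_le.1 (le_refl |max (h z) (s + 2 * γ) - max (h z') (s + 2 * γ)|)]
  · simp only [a, b]
    split_ifs with h1 h2 h2
    · linarith [clp_same' (s := s) hγ.le (h z) (h z'), hh z z']
    · exact clp_cross hγ.le (hh z z') (by linarith [gap z' h2, dist_triangle x z z'])
    · have := clp_cross (s := s) hγ.le (hh z z') (D := dist z z')
        (by linarith [gap z h1, dist_triangle_right x z z'])
      linarith
    · linarith [clp_same' (s := s) hγ.le (h z) (h z'), hh z z']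
  · rw [e1, e]
    refine mul_le_mul_of_nonneg_left ?_ (by positivity)
    have k1 : a x = 0 := (if_pos hx).trans (by simp [clp, hs, hγ.le])
    have k2 : b x = γ := (if_pos hx).trans (by simp [clp, hs, hγ.le])
    have k3 : b y ≤ a y := by
      simp only [a, b, if_neg hy]
      exact max_le_max le_rfl (min_le_min le_rfl (by linarith))
    linarith [neg_le_abs (a x - a y), le_abs_self (b x - b y),
      abs_nonneg (min (h x) s - min (h y) s),
      abs_nonneg (max (h x) (s + 2 * γ) - max (h y) (s + 2 * γ))]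

theorem small_xlaw (k : ℕ) : ∃ c : ℝ, 0 < c ∧ ∀ (V : Type) [Fintype V] [PseudoMetricSpace V],
    Fintype.card V ≤ k → ∀ h : V → ℝ, (∀ x y, |h x - h y| ≤ dist x y) → XLaw dist h c := by
  refine ⟨(2 * (k + 1) * (k ^ 2 + 1))⁻¹, by positivity, fun V _ _ hk h hh => ?_⟩
  choose w w0 w1 w2 using small_pair hk hh
  set N : ℝ := (Fintype.card (V × V) : ℝ) with hN
  have e : ∀ x y, Ap.cs (fun η => N⁻¹ * ∑ p : V × V, w p.1 p.2 η) x y =
      N⁻¹ * ∑ p : V × V, Ap.cs (w p.1 p.2) x y := fun x y => by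
    simp only [Ap.cs, Finset.mul_sum, Finset.sum_mul, mul_assoc]
    exact Finset.sum_comm
  refine ⟨fun η => N⁻¹ * ∑ p : V × V, w p.1 p.2 η,
    fun η => mul_nonneg (by positivity) (Finset.sum_nonneg fun p _ => w0 _ _ _), fun x y => ?_⟩
  have : Nonempty (V × V) := ⟨(x, y)⟩
  have N0 : 0 < N := Nat.cast_pos.2 Fintype.card_pos
  have N1 : N ≤ k ^ 2 + 1 := by
    have : (Fintype.card V : ℝ) ≤ k := Nat.cast_le.2 hk
    rw [hN, Fintype.card_prod, Nat.cast_mul]
    nlinarith [(Nat.cast_nonneg (Fintype.card V) : (0 : ℝ) ≤ _)]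
  rw [e, le_inv_mul_iff₀ N0, inv_mul_le_iff₀ N0, le_inv_mul_iff₀ N0]
  refine ⟨le_trans ?_ (Finset.single_le_sum (f := fun p : V × V => Ap.cs (w p.1 p.2) x y)
    (fun p _ => Ap.cs_nonneg (w0 _ _) x y) (Finset.mem_univ (x, y))), ?_, ?_⟩
  · rw [mul_left_comm, inv_mul_le_iff₀ (by positivity)]
    have := Ap.cs_nonneg (w0 x y) x y
    calc N * dist x y ≤ (k ^ 2 + 1) * (2 * (k + 1) * Ap.cs (w x y) x y) :=
          mul_le_mul N1 (w2 x y) dist_nonneg (by positivity)
      _ = _ := by ring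
  · simpa [hN] using Finset.sum_le_sum fun (p : V × V) (_ : p ∈ Finset.univ) => (w1 p.1 p.2 x y).2
  · simpa [hN] using Finset.sum_le_sum fun (p : V × V) (_ : p ∈ Finset.univ) => (w1 p.1 p.2 x y).1

/-- The law on graphs with few vertices, exact from the root `a`. -/
theorem small_exact (k : ℕ) : ∃ c : ℝ, 0 < c ∧ ∀ (V : Type) [Fintype V] (G : SimpleGraph V),
    G.Connected → Fintype.card V ≤ k → ∀ ℓ : Sym2 V → ℝ, (∀ e ∈ G.edgeSet, 0 < ℓ e) → ∀ a : V,
      ∃ w : (V → Bool) → ℝ, (∀ η, 0 ≤ w η) ∧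
        (∀ x y, c * spDist G ℓ x y ≤ Ap.cs w x y ∧ Ap.cs w x y ≤ spDist G ℓ x y ∧
          |spDist G ℓ x a - spDist G ℓ y a| ≤ Ap.cs w x y) ∧
        ∀ y, Ap.cs w a y = spDist G ℓ a y := by
  obtain ⟨c, hc, H⟩ := small_xlaw k
  refine ⟨c, hc, fun V _ G hG hp ℓ hl a => ?_⟩
  let _ := spMetric hG hl
  obtain ⟨w, h0, h1⟩ := H V hp (fun v => dist v a) fun x y => abs_dist_sub_le x y a
  have M := met hG hl
  refine ⟨w, h0, h1, fun y => le_antisymm (h1 a y).2.1 (le_trans ?_ (h1 a y).2.2)⟩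
  beta_reduce
  rw [dist_self, zero_sub, abs_neg, dist_comm]
  exact le_abs_self _

end Vale.Agent.P235.Pl
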