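import Vale.Agent.P235S.SPair
import Vale.Agent.P235S.SRD
import Vale.Agent.P235S.STor
import Vale.Agent.P235S.Exact
import Vale.Agent.P235S.Small
import Vale.Agent.P235S.SSm
import Vale.Agent.P235S.SLaw

/-! Two-sums of planar and small graphs. `letI := spMetric hG hℓ`, `exists_RD`. For every node `τ` choose `a τ, b τ`: if `D.Qs τ` is nonempty and `τ ≠ root`, its points
(`Set.ncard ≤ 2`, `τ ≠ par τ` by `dep_par`); otherwise `a τ = b τ`, a point of `B τ` if there is one. `HasLaw`: `law_triv` for an empty bag, else `law_exists` with `ex_of_sub` and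
`Pl.planar_exact` for the torso with lengths `tl` (`torso_dist`), resp. `Pl.small_xlaw` on the subtype with `h = dist · a`; `c = min 1 (min c₁ c₂)`. Finish with `cut2`. -/

namespace Vale.Agent.P235.Ts

open Finset

set_option linter.unusedSectionVars false



theorem smain_two {V : Type} [Finite V] {Q : Set V} (h : Q.Nonempty) (h2 : Q.ncard ≤ 2) :
    ∃ a ∈ Q, ∃ b ∈ Q, Q ⊆ {a, b} := by
  have h1 := (Set.ncard_pos (Set.toFinite Q)).2 h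
  rcases (by omega : Q.ncard = 1 ∨ Q.ncard = 2) with e | e
  · obtain ⟨a, rfl⟩ := Set.ncard_eq_one.1 e
    exact ⟨a, rfl, a, rfl, by simp⟩
  · obtain ⟨a, b, -, rfl⟩ := Set.ncard_eq_two.1 e
    exact ⟨a, by simp, b, by simp, le_rfl⟩

theorem twoSum_embed (k : ℕ) : ∃ C : ℝ, ∀ (V : Type) [Fintype V] (G : SimpleGraph V),
    G.Connected → TwoSum G k → ∀ ℓ : Sym2 V → ℝ, (∀ e ∈ G.edgeSet, 0 < ℓ e) →
      EmbedsL1 (spDist G ℓ) C := by
  classical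
  obtain ⟨c₁, h₁, H₁⟩ := Pl.planar_exact
  obtain ⟨c₂, h₂, H₂⟩ := Pl.small_xlaw k
  have c0 : 0 < min 1 (min c₁ c₂) := lt_min one_pos (lt_min h₁ h₂)
  have c1 := min_le_left 1 (min c₁ c₂)
  have c2 : min 1 (min c₁ c₂) ≤ c₁ := (min_le_right _ _).trans (min_le_left _ _)
  have c3 : min 1 (min c₁ c₂) ≤ c₂ := (min_le_right _ _).trans (min_le_right _ _)
  generalize min 1 (min c₁ c₂) = c at c0 c1 c2 c3
  refine ⟨40 * (4 * 75 ^ 4 + 72) / (c / 1000) ^ 3, ?_⟩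
  rintro V _ G hG ⟨ι, _, T, B, hT, hE, hC, h2, hP⟩ ℓ hℓ
  have := Fintype.ofFinite ι
  obtain ⟨D, hD⟩ := exists_RD hG hℓ hT hE hC
  have ht := torso_dist hG hℓ hE D hD
  letI := spMetric hG hℓ
  subst hD
  obtain ⟨v₀⟩ := hG.nonempty
  have sel : ∀ τ, ∃ a b, (τ ≠ D.root → D.Qs τ ⊆ {a, b}) ∧
      (τ ≠ D.root → (D.Qs τ).Nonempty → a ∈ D.Qs τ ∧ b ∈ D.Qs τ) ∧
      (τ ≠ D.root → a = b ∨ (D.Qs τ).Nonempty) ∧
      ((D.B τ = ∅ ∧ a = b) ∨ (a ∈ D.B τ ∧ b ∈ D.B τ)) := fun τ => by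
    by_cases h : τ ≠ D.root ∧ (D.Qs τ).Nonempty
    · obtain ⟨a, ha, b, hb, k⟩ := smain_two h.2 (h2 τ (D.par τ) fun e => by
        have := D.dep_par τ h.1
        rw [← e] at this
        omega)
      exact ⟨a, b, fun _ => k, fun _ _ => ⟨ha, hb⟩, fun _ => Or.inr h.2, Or.inr ⟨ha.1, hb.1⟩⟩
    · have k : ∃ a, (D.B τ = ∅ ∧ a = a) ∨ (a ∈ D.B τ ∧ a ∈ D.B τ) :=
        (D.B τ).eq_empty_or_nonempty.elim (fun e => ⟨v₀, Or.inl ⟨e, rfl⟩⟩)
          fun ⟨a, ha⟩ => ⟨a, Or.inr ⟨ha, ha⟩⟩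
      obtain ⟨a, k⟩ := k
      exact ⟨a, a, fun h1 x hx => (h ⟨h1, x, hx⟩).elim, fun h1 h3 => (h ⟨h1, h3⟩).elim,
        fun _ => Or.inl rfl, k⟩
  choose a b s1 s2 s3 s4 using sel
  refine cut2 (T := D) (a := a) (b := b) ⟨s1, s2, s3⟩ (by positivity) (by linarith) fun τ => ?_
  rcases s4 τ with ⟨e1, e2⟩ | ⟨ha, hb⟩
  · rw [e1, ← e2]
    exact law_triv _ _
  refine law_exists ha hb c0 c1 ?_
  have := Fintype.ofFinite (D.B τ)
  obtain ⟨t1, t2, t3⟩ := ht τ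
  rcases hP τ with h | h
  · have : Nonempty (D.B τ) := ⟨⟨_, ha⟩⟩
    obtain ⟨w, w0, w1, w2⟩ := H₁ _ _ ⟨t1⟩ h _ t2 ⟨_, ha⟩
    simp only [t3] at w1 w2
    exact (ex_of_sub ha hb w0 (fun x y => ⟨(w1 x y).1, (w1 x y).2.1⟩) (w2 ⟨_, hb⟩)).mono c2
  · obtain ⟨w, w0, w1⟩ := H₂ (D.B τ) (by rwa [← Nat.card_eq_fintype_card])
      (fun x => dist x ⟨_, ha⟩) fun x y => abs_dist_sub_le x y _
    refine (ex_of_sub ha hb w0 (fun x y => ⟨(w1 x y).1, (w1 x y).2.1⟩)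
      (le_antisymm (w1 _ _).2.1 (le_trans ?_ (w1 _ _).2.2))).mono c3
    beta_reduce
    rw [dist_self, zero_sub, abs_neg, dist_comm]
    exact le_abs_self _

end Vale.Agent.P235.Ts
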