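import Vale.Agent.P235S.SEsc
import Vale.Agent.P235S.SGlue

/-! All pairs. -/

namespace Vale.Agent.P235.Ts

open Finset

set_option linter.unusedSectionVars false

variable {V ι : Type} [PseudoMetricSpace V] [Fintype V] [DecidableEq V] [Fintype ι] {T : RD V ι}
  {c Z : ℝ} {a b : ι → V} {m : ι → (V → Bool) → ℝ} {w : (V → Bool) → ℝ}

theorem pair_esc (g : T.GL c Z a b m w) (hp : T.Pairs a b) (hc : 0 < c) (hc1 : c ≤ 1) {σ σ' : ι}
    {s t : V} (ht : t ∈ T.B σ) (hs : s ∈ T.B σ') {j : ℕ} (hj : j ≤ T.dep σ)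
    (hn : j < T.dep σ → ¬ T.Desc (T.anc σ (j + 1)) σ') :
    ∃ z ∈ T.B (T.anc σ j), c ^ 2 * dist t z ≤ 8 * (4 * 75 ^ 4 + 72) * sepw w s t := by
  rcases hj.lt_or_eq with h | h
  · exact escape g hp hc hc1 ht hs h (hn h)
  · refine ⟨t, by rw [T.anc_ge h.ge]; exact ht, ?_⟩
    have h0 : 0 ≤ sepw w s t := sum_nonneg fun η _ => mul_nonneg (g.nonneg η) (abs_nonneg _)
    rw [dist_self, mul_zero]
    positivity

theorem pair (g : T.GL c Z a b m w) (hp : T.Pairs a b) (hc : 0 < c) (hc1 : c ≤ 1) (s t : V) :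
    c ^ 3 * dist s t ≤ 40 * (4 * 75 ^ 4 + 72) * sepw w s t := by
  obtain ⟨σ, ht⟩ := T.cover t
  obtain ⟨σ', hs⟩ := T.cover s
  obtain ⟨j, h1, h2, h3, h4, h5⟩ := T.exists_lca σ σ'
  obtain ⟨z, hz, hz'⟩ := pair_esc g hp hc hc1 ht hs h1 h4
  obtain ⟨x, hx, hx'⟩ := pair_esc g hp hc hc1 hs ht h2 h5
  rw [← h3] at hx
  rw [RTD.sepw_comm w t s] at hx'
  have h0 : 0 ≤ sepw w s t := sum_nonneg fun η _ => mul_nonneg (g.nonneg η) (abs_nonneg _)
  obtain ⟨μ, hl⟩ := g.law (T.anc σ j)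
  have e : sepw w x z = sepw (m (T.anc σ j)) x z :=
    g.bag _ _ ((dep_xv hx).comp₂ (dep_xv hz) fun p q => |p - q|)
  have b1 : c * dist x z ≤ sepw w x z := e ▸ hl.lo x hx z hz
  have b2 := RTD.sepw_tri g.nonneg x s z
  have b3 := RTD.sepw_tri g.nonneg s t z
  have b4 := g.up x s
  have b5 := g.up t z
  rw [dist_comm x s] at b4
  have b6 : c * dist x z ≤ dist s x + sepw w s t + dist t z := by linarith
  have b7 : dist s t ≤ dist s x + dist x z + dist t z := by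
    rw [dist_comm t z]
    exact dist_triangle4 _ _ _ _
  have c2 : 0 ≤ c ^ 2 := by positivity
  have c21 : c ^ 2 ≤ 1 := pow_le_one₀ hc.le hc1
  have c3 : c ^ 3 ≤ c ^ 2 := pow_le_pow_of_le_one hc.le hc1 (by norm_num)
  have d1 := mul_le_mul_of_nonneg_left b7 (show 0 ≤ c ^ 3 by positivity)
  have d2 := mul_le_mul_of_nonneg_left b6 c2
  have d3 := mul_le_mul_of_nonneg_right c3 (dist_nonneg (x := s) (y := x))
  have d4 := mul_le_mul_of_nonneg_right c3 (dist_nonneg (x := t) (y := z))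
  have d5 := mul_le_mul_of_nonneg_right c21 h0
  have d6 : c ^ 2 * (c * dist x z) = c ^ 3 * dist x z := by ring
  linarith

theorem cut2 (hp : T.Pairs a b) (hc : 0 < c) (hc1 : c ≤ 1)
    (hL : ∀ τ, HasLaw (T.B τ) c (a τ) (b τ)) :
    EmbedsL1 (fun x y : V => dist x y) (40 * (4 * 75 ^ 4 + 72) / c ^ 3) := by
  obtain ⟨Z, m, w, g⟩ := exists_GL hp hc1 hL
  set C : ℝ := 40 * (4 * 75 ^ 4 + 72) / c ^ 3 with hC
  have c3 : 0 < c ^ 3 := by positivity
  have hC0 : 0 ≤ C := by positivity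
  refine Ap.ofFamily (ι := V → Bool) (fun x η => C * w η * xv x η) fun x y => ?_
  have e : ∑ η, |C * w η * xv x η - C * w η * xv y η| = C * sepw w x y := by
    unfold sepw ex
    rw [mul_sum]
    refine sum_congr rfl fun η _ => ?_
    rw [← mul_sub, abs_mul, abs_of_nonneg (mul_nonneg hC0 (g.nonneg η)), mul_assoc]
  rw [e]
  refine ⟨?_, mul_le_mul_of_nonneg_left (g.up x y) hC0⟩
  rw [hC, div_mul_eq_mul_div, le_div_iff₀ c3, mul_comm]
  exact pair g hp hc hc1 x y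

end Vale.Agent.P235.Ts
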